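import Vale.Agent.P170.Variance

/-!
# Clause operators and the backbone estimate
-/

open Finset
open scoped BigOperators

namespace Vale.Agent.P170

variable {X I : Type*} [Fintype I]

/-- The set of assignments satisfying the clause with literals `t 0, ..., t (k-1)`. -/
def cl (lit : I → Set X) (k : ℕ) (t : Fin k → I) : Set X := ⋃ j, lit (t j)

/-- The operator adding a clause made of `k` independent uniform literals. -/
noncomputable def TT (lit : I → Set X) (k : ℕ) : Module.End ℝ (Set X → ℝ) := op (cl lit k)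

/-- Fraction of literals that are false on all of `S`. -/
noncomputable def bb (lit : I → Set X) (S : Set X) : ℝ := 𝔼 i, (1 - chi (S ∩ lit i))

lemma good_TT [Nonempty I] (lit : I → Set X) (k : ℕ) : Good (TT lit k) := good_op _

lemma bb_nonneg (lit : I → Set X) (S : Set X) : 0 ≤ bb lit S :=
  expect_nonneg fun _ _ => sub_nonneg.2 (chi_le_one _)

lemma bb_le_one [Nonempty I] (lit : I → Set X) (S : Set X) : bb lit S ≤ 1 :=
  expect_le univ_nonempty fun i _ => by linarith [chi_nonneg (S ∩ lit i)]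

omit [Fintype I] in
lemma chi_inter_cl (lit : I → Set X) (k : ℕ) (t : Fin k → I) (S : Set X) :
    chi (S ∩ cl lit k t) = 1 - ∏ j, (1 - chi (S ∩ lit (t j))) := by
  by_cases h : (S ∩ cl lit k t).Nonempty
  · rw [chi_of_nonempty h]
    obtain ⟨x, hx, hx'⟩ := h
    obtain ⟨j, hj⟩ := Set.mem_iUnion.1 hx'
    have hne : (S ∩ lit (t j)).Nonempty := ⟨x, hx, hj⟩
    rw [prod_eq_zero (mem_univ j) (by rw [chi_of_nonempty hne, sub_self]), sub_zero]
  · rw [Set.not_nonempty_iff_eq_empty] at h
    rw [h, chi_empty, prod_eq_one, sub_self]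
    intro j _
    have : S ∩ lit (t j) = ∅ := by
      rw [← Set.subset_empty_iff, ← h]
      exact Set.inter_subset_inter_right _ (Set.subset_iUnion (fun j => lit (t j)) j)
    rw [this, chi_empty, sub_zero]

lemma TT_chi [Nonempty I] (lit : I → Set X) (k : ℕ) (S : Set X) :
    TT lit k chi S = 1 - bb lit S ^ k := by
  unfold TT bb
  rw [op_apply, expect_pow, Fintype.piFinset_univ]
  simp_rw [chi_inter_cl]
  rw [expect_sub_distrib, Fintype.expect_const]

lemma hz_TT [Nonempty I] (lit : I → Set X) (k : ℕ) {S : Set X} (hS : S.Nonempty) :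
    hz (TT lit k) S = bb lit S ^ k := by
  rw [hz, TT_chi, chi_of_nonempty hS]; ring

lemma hz_lit [Nonempty I] (lit : I → Set X) {S : Set X} (hS : S.Nonempty) :
    hz (op lit) S = bb lit S := by
  rw [hz_op, chi_of_nonempty hS]; rfl

/-- Real-variable core of the comparison of a shorter clause with `L` clauses. -/
lemma real_core {b b' u p L : ℝ} {k : ℕ} (hk : 3 ≤ k) (hb' : 0 ≤ b') (hb'b : b' ≤ b)
    (hb : b ≤ b' + p) (hb1 : b ≤ 1) (hL : 1 ≤ L) (hp : p * L ≤ 1) (hu0 : 0 ≤ u)
    (hu1 : u ≤ 1) (hu : L * b' ^ k * (1 - u) ≤ u) :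
    b ^ k - b' ^ k ≤ k * p * (2 ^ k * u + 4 / L ^ 2) := by
  have hb0 : 0 ≤ b := hb'.trans hb'b
  have hp0 : 0 ≤ p := by linarith
  have hL0 : 0 < L := by linarith
  have h1 : b ^ k - b' ^ k ≤ k * p * b ^ (k - 1) := by
    have := abs_pow_sub_pow_le (a := b) (b := b') (n := k)
    rw [abs_of_nonneg (sub_nonneg.2 hb'b), abs_of_nonneg hb0, abs_of_nonneg hb',
      max_eq_left hb'b] at this
    refine (le_abs_self _).trans (this.trans ?_)
    have : b - b' ≤ p := by linarith
    calc (b - b') * k * b ^ (k - 1) ≤ p * k * b ^ (k - 1) := by gcongr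
      _ = _ := by ring
  refine h1.trans (mul_le_mul_of_nonneg_left ?_ (by positivity))
  have hpL : p ≤ 1 / L := by rw [le_div_iff₀ hL0]; exact hp
  by_cases hc : b' ≤ 1 / L
  · have h2 : b ≤ 2 / L := by
      have : 2 / L = 1 / L + 1 / L := by ring
      linarith
    have h3 : b ^ (k - 1) ≤ b ^ 2 := pow_le_pow_of_le_one hb0 hb1 (by omega)
    have h4 : b ^ 2 ≤ (2 / L) ^ 2 := by gcongr
    have h5 : (2 / L) ^ 2 = 4 / L ^ 2 := by ring
    have h6 : 0 ≤ 2 ^ k * u := by positivity
    linarith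
  · push Not at hc
    obtain ⟨j, rfl⟩ : ∃ j, k = j + 1 := ⟨k - 1, by omega⟩
    simp only [Nat.add_sub_cancel]
    have h2 : 1 ≤ L * b' := by
      rw [div_lt_iff₀ hL0] at hc; linarith
    have h3 : b' ^ j * (1 - u) ≤ u := by
      refine le_trans ?_ hu
      have : b' ^ j * (1 - u) * 1 ≤ b' ^ j * (1 - u) * (L * b') :=
        mul_le_mul_of_nonneg_left h2 (mul_nonneg (pow_nonneg hb' _) (by linarith))
      calc b' ^ j * (1 - u) = b' ^ j * (1 - u) * 1 := by ring
        _ ≤ b' ^ j * (1 - u) * (L * b') := this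
        _ = _ := by ring
    have h4 : b' ^ j ≤ 1 := pow_le_one₀ hb' (hb'b.trans hb1)
    have h5 : b' ^ j ≤ 2 * u := by nlinarith
    have h6 : b ^ j ≤ (2 * b') ^ j := by
      gcongr
      linarith
    have h7 : (2 * b') ^ j ≤ 2 ^ (j + 1) * u := by
      rw [mul_pow, pow_succ, mul_assoc]
      gcongr
    have h8 : 0 ≤ 4 / L ^ 2 := by positivity
    linarith

lemma sum_sub_shift_le (P : ℕ → ℝ) (h0 : ∀ m, 0 ≤ P m) (h1 : ∀ m, P m ≤ 1) (M L : ℕ) :
    ∑ m ∈ range M, (P m - P (L + m)) ≤ L := by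
  have e1 := sum_range_add P M L
  have e2 := sum_range_add P L M
  rw [add_comm L M] at e2
  have e3 : ∑ m ∈ range L, P m ≤ L := by
    calc ∑ m ∈ range L, P m ≤ ∑ m ∈ range L, (1 : ℝ) := sum_le_sum fun m _ => h1 m
      _ = L := by simp
  have e4 : 0 ≤ ∑ m ∈ range L, P (M + m) := sum_nonneg fun m _ => h0 _
  rw [sum_sub_distrib]
  linarith

/-- Comparison of two literal families whose dead fractions differ by at most `p`. -/
lemma compare_families [Nonempty I] (lit lit' : I → Set X) {k : ℕ} (hk : 3 ≤ k) {p : ℝ} {L : ℕ}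
    (hL : 1 ≤ L) (hp0 : 0 ≤ p) (hp : p * L ≤ 1)
    (hle : ∀ S : Set X, S.Nonempty → bb lit' S ≤ bb lit S)
    (hge : ∀ S : Set X, S.Nonempty → bb lit S ≤ bb lit' S + p) (M : ℕ) (S : Set X) :
    ∑ m ∈ range M, ((TT lit' k ^ m) chi S - (TT lit k ^ m) chi S) ≤
      M * (k * p * (2 ^ k * L + 4 * M / L ^ 2)) := by
  set A := TT lit' k with hAdef
  set T := TT lit k with hTdef
  have hA : Good A := good_TT lit' k
  have hT : Good T := good_TT lit k
  have hAT : Commute A T := op_commute _ _
  have hL' : (1 : ℝ) ≤ L := by exact_mod_cast hL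
  have step1 : ∀ S, A chi S - T chi S ≤
      k * p * (2 ^ k * (chi S - (A ^ L) chi S) + 4 / (L : ℝ) ^ 2) := by
    intro S
    rcases S.eq_empty_or_nonempty with rfl | hS
    · rw [hA.empty, hT.empty, (hA.pow L).empty, sub_self]
      positivity
    · have h1 := mul_hz_mul_pow_le (cl lit' k) L S
      change (L : ℝ) * hz A S * (A ^ L) chi S ≤ chi S - (A ^ L) chi S at h1
      rw [hAdef, hz_TT lit' k hS, ← hAdef] at h1
      rw [chi_of_nonempty hS] at h1 ⊢
      have h2 := real_core (u := 1 - (A ^ L) chi S) hk (bb_nonneg lit' S) (hle S hS) (hge S hS)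
        (bb_le_one lit S) hL' hp (by linarith [(hA.pow L).chi_le_one S])
        (by linarith [(hA.pow L).chi_nonneg S]) (by simpa using h1)
      rw [hAdef, hTdef, TT_chi, TT_chi, ← hAdef]
      linarith
  have step2 : ∀ r ≤ M, ∀ S, ∑ m ∈ range r, (A ^ m) (A chi - T chi) S ≤
      k * p * (2 ^ k * L + 4 * M / L ^ 2) := by
    intro r hr S
    have h1 : ∀ m, (A ^ m) (A chi - T chi) S ≤
        k * p * (2 ^ k * ((A ^ m) chi S - (A ^ (L + m)) chi S) + 4 / (L : ℝ) ^ 2) := by
      intro m
      have h2 : (A ^ m) (A chi - T chi) S ≤ (A ^ m) ((k * p : ℝ) • ((2 ^ k : ℝ) •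
          (chi - (A ^ L) chi) + fun _ => 4 / (L : ℝ) ^ 2)) S := (hA.pow m).le step1 S
      rw [map_smul, map_add, map_smul, map_sub (A ^ m) chi] at h2
      simp only [Pi.smul_apply, Pi.add_apply, Pi.sub_apply, smul_eq_mul, (hA.pow m).const] at h2
      rw [add_comm L m, pow_add]
      exact h2
    have h3 := sum_sub_shift_le (fun m => (A ^ m) chi S) (fun m => (hA.pow m).chi_nonneg S)
      (fun m => (hA.pow m).chi_le_one S) r L
    refine (sum_le_sum fun m _ => h1 m).trans ?_
    rw [← mul_sum, sum_add_distrib, ← mul_sum]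
    refine mul_le_mul_of_nonneg_left ?_ (by positivity)
    have h4 : (r : ℝ) ≤ M := by exact_mod_cast hr
    have h5 : ∑ m ∈ range r, (4 : ℝ) / (L : ℝ) ^ 2 ≤ 4 * M / L ^ 2 := by
      rw [sum_const, card_range, nsmul_eq_mul, mul_div_assoc', mul_comm]
      gcongr
    have h6 : (0 : ℝ) ≤ 2 ^ k := by positivity
    nlinarith [mul_le_mul_of_nonneg_left h3 h6]
  have step3 : ∀ r ≤ M, ∀ S, (∑ m ∈ range r, ((A ^ m) chi - (T ^ m) chi)) S ≤
      r * (k * p * (2 ^ k * L + 4 * M / L ^ 2)) := by
    intro r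
    induction r with
    | zero => intro _ S; simp
    | succ r ih =>
      intro hr S
      have h1 : ∑ m ∈ range (r + 1), ((A ^ m) chi - (T ^ m) chi) =
          ∑ m ∈ range r, (A ^ m) (A chi - T chi) +
            T (∑ m ∈ range r, ((A ^ m) chi - (T ^ m) chi)) := by
        rw [sum_range_succ', map_sum, ← sum_add_distrib]
        simp only [pow_zero, sub_self, add_zero]
        refine sum_congr rfl fun m _ => ?_
        have e1 : (A ^ m) (T chi) = T ((A ^ m) chi) :=
          congrArg (fun U : Module.End ℝ (Set X → ℝ) => U chi) (hAT.pow_left m).eq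
        rw [map_sub, map_sub, e1, pow_succ A, pow_succ' T]
        simp only [Module.End.mul_apply]
        abel
      rw [h1, Pi.add_apply, Finset.sum_apply]
      have h2 := step2 r (by omega) S
      have h3 := hT.le_const (ih (by omega)) S
      push_cast
      linarith
  have := step3 M le_rfl S
  rw [Finset.sum_apply] at this
  exact this

section Standard

variable {V : Type*} [Fintype V] [DecidableEq V]

/-- The standard literal family: `(v, s)` is true on `σ` when `σ v = s`. -/
def lit0 (V : Type*) : V × Bool → Set (V → Bool) := fun l => {σ | σ l.1 = l.2}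

/-- The literal family in which literals on `v` are replaced by the constant true. -/
def litDel (v : V) : V × Bool → Set (V → Bool) := fun l => if l.1 = v then Set.univ else lit0 V l

lemma bb_litDel_le (v : V) (S : Set (V → Bool)) : bb (litDel v) S ≤ bb (lit0 V) S := by
  refine expect_le_expect fun l _ => ?_
  have : S ∩ lit0 V l ⊆ S ∩ litDel v l := by
    refine Set.inter_subset_inter_right _ ?_
    unfold litDel
    split_ifs
    · exact Set.subset_univ _
    · exact subset_rfl
  linarith [chi_mono this]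

lemma bb_le_litDel (v : V) (S : Set (V → Bool)) :
    bb (lit0 V) S ≤ bb (litDel v) S + 1 / Fintype.card V := by
  have h1 : (1 / Fintype.card V : ℝ) = 𝔼 l : V × Bool, if l.1 = v then (1 : ℝ) else 0 := by
    rw [← univ_product_univ, expect_product]
    simp only
    have : ∀ x : V, 𝔼 _y : Bool, (if x = v then (1 : ℝ) else 0) = if x = v then (1 : ℝ) else 0 :=
      fun x => Fintype.expect_const _
    simp_rw [this]
    rw [Fintype.expect_eq_sum_div_card]
    simp
  rw [h1]
  unfold bb
  rw [← expect_add_distrib]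
  refine expect_le_expect fun l _ => ?_
  unfold litDel
  split_ifs
  · linarith [chi_le_one (S ∩ Set.univ), chi_nonneg (S ∩ lit0 V l)]
  · simp

lemma del_invariant (v : V) (s : Bool) (k m : ℕ) (S : Set (V → Bool))
    (hS : ∀ σ ∈ S, Function.update σ v s ∈ S) :
    (TT (litDel v) k ^ m) chi S ≤ (TT (litDel v) k ^ m) chi (S ∩ lit0 V (v, s)) := by
  induction m generalizing S with
  | zero =>
    rcases S.eq_empty_or_nonempty with rfl | ⟨σ, hσ⟩
    · simp
    · have : (S ∩ lit0 V (v, s)).Nonempty := ⟨Function.update σ v s, hS σ hσ, by simp [lit0]⟩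
      simp only [pow_zero, Module.End.one_apply]
      rw [chi_of_nonempty this]
      exact chi_le_one S
  | succ m ih =>
    rw [pow_succ']
    refine expect_le_expect fun t _ => ?_
    rw [Set.inter_right_comm]
    refine ih _ fun σ hσ => ⟨hS σ hσ.1, ?_⟩
    obtain ⟨j, hj⟩ := Set.mem_iUnion.1 hσ.2
    refine Set.mem_iUnion.2 ⟨j, ?_⟩
    unfold litDel at hj ⊢
    split_ifs with h
    · trivial
    · rw [if_neg h] at hj
      simpa [lit0, Function.update_of_ne h] using hj

/-- The backbone estimate. -/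
lemma backbone_le [Nonempty V] {k : ℕ} (hk : 3 ≤ k) {L : ℕ} (hL : 1 ≤ L)
    (hLN : L ≤ Fintype.card V) (M : ℕ) :
    (∑ m ∈ range M, (TT (lit0 V) k ^ m) (hz (op (lit0 V)))) Set.univ ≤
      M * (k * (1 / Fintype.card V) * (2 ^ k * L + 4 * M / L ^ 2)) := by
  set T := TT (lit0 V) k with hTdef
  have hN : (0 : ℝ) < Fintype.card V := by exact_mod_cast Fintype.card_pos
  have h1 : ∀ m, (T ^ m) (hz (op (lit0 V))) Set.univ =
      𝔼 l, ((T ^ m) chi Set.univ - (T ^ m) chi (Set.univ ∩ lit0 V l)) := by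
    intro m
    have e0 : hz (op (lit0 V)) = chi - op (lit0 V) chi := rfl
    have e1 : (T ^ m) (op (lit0 V) chi) = op (lit0 V) ((T ^ m) chi) :=
      congrArg (fun U : Module.End ℝ (Set (V → Bool) → ℝ) => U chi)
        ((op_commute (cl (lit0 V) k) (lit0 V)).pow_left m).eq
    rw [e0, map_sub, e1, expect_sub_distrib, Fintype.expect_const]
    rfl
  rw [Finset.sum_apply]
  simp_rw [h1]
  rw [← expect_sum_comm]
  refine expect_le univ_nonempty fun ⟨v, s⟩ _ => ?_
  refine le_trans ?_ (compare_families (lit0 V) (litDel v) hk hL (by positivity) ?_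
    (fun S _ => bb_litDel_le v S) (fun S _ => bb_le_litDel v S) M (Set.univ ∩ lit0 V (v, s)))
  · refine sum_le_sum fun m _ => sub_le_sub_right ?_ _
    refine le_trans ?_ (del_invariant v s k m Set.univ fun _ _ => trivial)
    refine pow_chi_le_pow_chi (good_TT _ k) (good_TT _ k) (op_commute _ _) (fun S => ?_) m _
    rw [TT_chi, TT_chi]
    have := pow_le_pow_left₀ (bb_nonneg (litDel v) S) (bb_litDel_le v S) k
    linarith
  · rw [one_div, inv_mul_le_iff₀ hN, mul_one]
    exact_mod_cast hLN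

/-- Satisfiability probability with `m` clauses of `k` independent uniform literals. -/
noncomputable def PP (V : Type*) [Fintype V] (k m : ℕ) : ℝ := (TT (lit0 V) k ^ m) chi Set.univ

/-- The polynomial window estimate. -/
theorem window [Nonempty V] {k : ℕ} (hk : 3 ≤ k) {K L : ℕ} (hK : 1 ≤ K) (hL : 1 ≤ L)
    (hLN : L ≤ Fintype.card V) (hNL : Fintype.card V ≤ L ^ 3) (a g : ℕ)
    (hM : a + 2 * g ≤ K * Fintype.card V) :
    (g : ℝ) ^ 2 * (PP V k (a + 2 * g) * (1 - PP V k a)) ≤
      2 * k * K ^ 3 * (2 ^ k + 4 * K) * (Fintype.card V * L ^ 2) := by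
  set T := TT (lit0 V) k with hTdef
  set N := Fintype.card V with hNdef
  have hT : Good T := good_TT _ k
  have hN : (0 : ℝ) < N := by exact_mod_cast Fintype.card_pos
  have hK' : (1 : ℝ) ≤ K := by exact_mod_cast hK
  have hL' : (1 : ℝ) ≤ L := by exact_mod_cast hL
  have hNL' : (N : ℝ) ≤ L ^ 3 := by exact_mod_cast hNL
  have h1 := window_le_var (PP V k) (hT.antitone _) (fun m => (hT.pow m).chi_nonneg _)
    (fun m => (hT.pow m).chi_le_one _) a g (K * N) hM
  have h2 := var_le (cl (lit0 V) k) ((K * L : ℝ) • hz (op (lit0 V)))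
    (fun S => mul_nonneg (by positivity) (hz_nonneg (good_op _) S)) (K * N) ?_ (K * N) le_rfl
    Set.univ
  · rw [ss_apply, ee_apply] at h2
    refine h1.trans (h2.trans ?_)
    simp_rw [map_smul]
    rw [← smul_sum, Pi.smul_apply, smul_eq_mul]
    have h3 := backbone_le (V := V) hk hL hLN (K * N)
    have h4 : (4 : ℝ) * (K * N : ℕ) / L ^ 2 ≤ 4 * K * L := by
      rw [div_le_iff₀ (by positivity)]
      push_cast
      calc (4 : ℝ) * (K * N) ≤ 4 * (K * L ^ 3) := by gcongr
        _ = _ := by ring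
    calc _ ≤ 2 * ((K * N : ℕ) : ℝ) * (K * L * (((K * N : ℕ) : ℝ) *
          (k * (1 / N) * (2 ^ k * L + 4 * ((K * N : ℕ) : ℝ) / L ^ 2)))) := by gcongr; exact h3
      _ ≤ 2 * ((K * N : ℕ) : ℝ) * (K * L * (((K * N : ℕ) : ℝ) *
          (k * (1 / N) * (2 ^ k * L + 4 * K * L)))) := by gcongr
      _ = _ := by push_cast; field_simp
  · intro r hr S
    change hz T S * ee T r S ≤ (K * L : ℝ) * hz (op (lit0 V)) S
    rcases S.eq_empty_or_nonempty with rfl | hS
    · rw [hz_empty hT, hz_empty (good_op _)]; simp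
    · have e1 : hz T S * ee T r S ≤ 1 := by
        have := hz_mul_ee_le (cl (lit0 V) k) r S
        change hz T S * ee T r S ≤ chi S - (T ^ r) chi S at this
        linarith [chi_le_one S, (hT.pow r).chi_nonneg S]
      have e2 : ee T r S ≤ K * L ^ 3 := by
        refine (ee_le hT r S).trans ?_
        have : (r : ℝ) ≤ K * N := by exact_mod_cast hr
        exact this.trans (by gcongr)
      rw [hz_lit _ hS]
      rw [hTdef, hz_TT _ k hS, ← hTdef] at e1 ⊢
      set b := bb (lit0 V) S
      have hb0 : 0 ≤ b := bb_nonneg _ S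
      have hb1 : b ≤ 1 := bb_le_one _ S
      by_cases hc : 1 ≤ L * b
      · refine e1.trans ?_
        nlinarith
      · push Not at hc
        have e3 : b ^ k ≤ b ^ 3 := pow_le_pow_of_le_one hb0 hb1 hk
        have e4 : (L * b) ^ 3 ≤ (L * b) ^ 1 :=
          pow_le_pow_of_le_one (by positivity) hc.le (by norm_num)
        calc b ^ k * ee T r S ≤ b ^ 3 * (K * L ^ 3) :=
              mul_le_mul e3 e2 (ee_nonneg hT r S) (by positivity)
          _ = K * (L * b) ^ 3 := by ring
          _ ≤ K * (L * b) ^ 1 := by gcongr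
          _ = _ := by ring

end Standard

end Vale.Agent.P170
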