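import Vale.Agent.P170.Interp

/-!
# Crude upper and lower bounds on the threshold
-/

open Finset
open scoped BigOperators

namespace Vale.Agent.P170

section Upper

variable {V : Type*} [Fintype V] [DecidableEq V] [Nonempty V]

omit [DecidableEq V] in
lemma bb_singleton (σ : V → Bool) : bb (lit0 V) {σ} = 1 / 2 := by
  unfold bb
  rw [← univ_product_univ, expect_product]
  have : ∀ v : V, 𝔼 s : Bool, (1 - chi ({σ} ∩ lit0 V (v, s))) = 1 / 2 := by
    intro v
    have h1 : chi ({σ} ∩ lit0 V (v, σ v)) = 1 := chi_of_nonempty ⟨σ, rfl, rfl⟩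
    have h2 : chi ({σ} ∩ lit0 V (v, !σ v)) = 0 := by
      have : ({σ} ∩ lit0 V (v, !σ v) : Set (V → Bool)) = ∅ := by
        ext τ
        simp only [lit0, Set.mem_inter_iff, Set.mem_singleton_iff, Set.mem_ofPred_eq,
          Set.mem_empty_iff_false, iff_false, not_and]
        rintro rfl
        simp
      rw [this, chi_empty]
    rw [Fintype.expect_eq_sum_div_card, Fintype.sum_bool]
    cases h : σ v <;> rw [h] at h1 h2 <;> simp only [Bool.not_false, Bool.not_true] at h2 <;>
      rw [h1, h2] <;> norm_num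
  simp only [this]
  exact Fintype.expect_const _

omit [DecidableEq V] in
lemma pow_chi_singleton (k m : ℕ) (σ : V → Bool) :
    (TT (lit0 V) k ^ m) chi {σ} ≤ (1 - (1 / 2) ^ k) ^ m := by
  have hT := good_TT (lit0 V) k
  have hθ : (0 : ℝ) ≤ 1 - (1 / 2) ^ k := by
    have : ((1 : ℝ) / 2) ^ k ≤ 1 := pow_le_one₀ (by norm_num) (by norm_num)
    linarith
  induction m with
  | zero => simpa using chi_le_one _
  | succ m ih =>
    have h1 : (TT (lit0 V) k ^ m) (TT (lit0 V) k chi) {σ} ≤
        (TT (lit0 V) k ^ m) (((1 : ℝ) - (1 / 2) ^ k) • chi) {σ} := by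
      refine (hT.pow m).mono _ _ _ fun S' hS' => ?_
      rcases Set.subset_singleton_iff_eq.1 hS' with rfl | rfl
      · rw [hT.empty]; simp [chi_empty]
      · rw [TT_chi, bb_singleton]
        simp [chi_of_nonempty]
    rw [map_smul, Pi.smul_apply, smul_eq_mul] at h1
    rw [pow_succ, Module.End.mul_apply, pow_succ' _ m]
    exact h1.trans (mul_le_mul_of_nonneg_left ih hθ)

/-- First moment bound. -/
theorem PP_le_first_moment (k m : ℕ) :
    PP V k m ≤ 2 ^ Fintype.card V * (1 - (1 / 2) ^ k) ^ m := by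
  have hT := good_TT (lit0 V) k
  have h1 : PP V k m ≤ (TT (lit0 V) k ^ m) (∑ σ : V → Bool, sh {σ} chi) Set.univ := by
    refine (hT.pow m).le (fun S => ?_) _
    rw [Finset.sum_apply]
    rcases S.eq_empty_or_nonempty with rfl | ⟨σ, hσ⟩
    · rw [chi_empty]; exact sum_nonneg fun σ _ => chi_nonneg _
    · refine le_trans ?_ (single_le_sum (f := fun σ => sh {σ} chi S)
        (fun σ _ => chi_nonneg _) (mem_univ σ))
      have : (S ∩ {σ}).Nonempty := ⟨σ, hσ, rfl⟩
      rw [sh_apply, chi_of_nonempty this]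
      exact chi_le_one S
  rw [map_sum, Finset.sum_apply] at h1
  refine h1.trans ?_
  calc ∑ σ : V → Bool, (TT (lit0 V) k ^ m) (sh {σ} chi) Set.univ
      ≤ ∑ σ : V → Bool, (1 - (1 / 2 : ℝ) ^ k) ^ m := by
        refine sum_le_sum fun σ _ => ?_
        have := pow_op_inter {σ} (cl (lit0 V) k) m chi Set.univ
        rw [Set.univ_inter] at this
        exact this.symm.trans_le (pow_chi_singleton k m σ)
    _ = _ := by simp

end Upper

section Lower

lemma expect_pi_prod {ι Ω : Type*} [Fintype ι] [DecidableEq ι] [Fintype Ω] (g : ι → Ω → ℝ) :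
    𝔼 F : ι → Ω, ∏ i, g i (F i) = ∏ i, 𝔼 ω, g i ω := by
  simp only [Fintype.expect_eq_sum_div_card]
  rw [prod_div_distrib, prod_univ_sum, Fintype.piFinset_univ]
  simp

lemma numeric_term {n m k j : ℕ} (hk : 2 ≤ k) (hn : 0 < n) (hm : 27 * m ≤ n) (hj : j ≤ m) :
    (m.choose j : ℝ) * (n.choose j : ℝ) * (((j : ℝ) / n) ^ k) ^ j ≤ (1 / 3) ^ j := by
  have hn' : (0 : ℝ) < n := by exact_mod_cast hn
  have hjn : (j : ℝ) / n ≤ 1 := by
    rw [div_le_one hn']; exact_mod_cast (by omega : j ≤ n)
  have h1 : ((j : ℝ) / n) ^ k ≤ ((j : ℝ) / n) ^ 2 :=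
    pow_le_pow_of_le_one (by positivity) hjn hk
  have h2 : (j : ℝ) ^ j / j.factorial ≤ 3 ^ j := by
    refine (Real.pow_div_factorial_le_exp (j : ℝ) (by positivity) j).trans ?_
    rw [← Real.exp_one_pow]
    exact pow_le_pow_left₀ (Real.exp_pos 1).le Real.exp_one_lt_three.le j
  have h3 : (m : ℝ) / n ≤ 1 / 27 := by
    rw [div_le_div_iff₀ hn' (by norm_num)]
    have : (27 * m : ℝ) ≤ n := by exact_mod_cast hm
    linarith
  have hf : (0 : ℝ) < j.factorial := by exact_mod_cast j.factorial_pos
  calc (m.choose j : ℝ) * (n.choose j : ℝ) * (((j : ℝ) / n) ^ k) ^ j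
      ≤ ((m : ℝ) ^ j / j.factorial) * ((n : ℝ) ^ j / j.factorial) * (((j : ℝ) / n) ^ 2) ^ j := by
        gcongr
        · exact Nat.choose_le_pow_div j m
        · exact Nat.choose_le_pow_div j n
    _ = ((m : ℝ) / n) ^ j * ((j : ℝ) ^ j / j.factorial) ^ 2 := by
        simp only [div_pow]
        field_simp
        ring
    _ ≤ (1 / 27) ^ j * (3 ^ j) ^ 2 := by gcongr
    _ = (1 / 3) ^ j := by
        rw [← pow_mul, mul_comm j 2, pow_mul, ← mul_pow]; norm_num

lemma geom_third (m : ℕ) : ∑ j ∈ Icc 1 m, ((1 : ℝ) / 3) ^ j ≤ 1 / 2 := by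
  have : ∑ j ∈ Icc 1 m, ((1 : ℝ) / 3) ^ j = 1 / 2 - 1 / 2 * (1 / 3) ^ m := by
    induction m with
    | zero => simp
    | succ m ih => rw [sum_Icc_succ_top (by omega), ih]; ring
  rw [this]
  have : (0 : ℝ) ≤ 1 / 2 * (1 / 3) ^ m := by positivity
  linarith

lemma hall_sat {n m k : ℕ} (F : Fin m → Fin k → Fin n × Bool)
    (h : ∀ J : Finset (Fin m), J.card ≤ (J.biUnion fun i => univ.image fun l => (F i l).1).card) :
    (Set.univ ∩ ⋂ i, cl (lit0 (Fin n)) k (F i)).Nonempty := by
  obtain ⟨f, hf, hf'⟩ := (all_card_le_biUnion_card_iff_exists_injective _).1 h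
  have : ∀ i, ∃ l, (F i l).1 = f i := fun i => by simpa using hf' i
  choose l hl using this
  refine ⟨Function.extend f (fun i => (F i (l i)).2) (fun _ => true), trivial, ?_⟩
  refine Set.mem_iInter.2 fun i => Set.mem_iUnion.2 ⟨l i, ?_⟩
  simp only [lit0, Set.mem_ofPred_eq]
  rw [hl, hf.extend_apply]

/-- Hall's theorem and a union bound: satisfiable with probability at least one half
at density `1/27`. -/
theorem half_le_PP {n m k : ℕ} (hk : 2 ≤ k) (hn : 0 < n) (hm : 27 * m ≤ n) :
    1 / 2 ≤ PP (Fin n) k m := by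
  have : Nonempty (Fin n) := ⟨⟨0, hn⟩⟩
  let g : Finset (Fin n) → (Fin k → Fin n × Bool) → ℝ :=
    fun W t => ∏ l, if (t l).1 ∈ W then 1 else 0
  have hg0 : ∀ W t, 0 ≤ g W t := fun W t => prod_nonneg fun l _ => by split_ifs <;> norm_num
  have hg : ∀ W, 𝔼 t, g W t = ((W.card : ℝ) / n) ^ k := by
    intro W
    have e1 : 𝔼 l : Fin n × Bool, (if l.1 ∈ W then (1 : ℝ) else 0) = W.card / n := by
      rw [← univ_product_univ, expect_product]
      have : ∀ x : Fin n, 𝔼 _y : Bool, (if x ∈ W then (1 : ℝ) else 0) =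
          if x ∈ W then (1 : ℝ) else 0 := fun x => Fintype.expect_const _
      simp only [this]
      rw [Fintype.expect_eq_sum_div_card]
      simp
    rw [← e1, expect_pow, Fintype.piFinset_univ]
  have h1 : ∀ F : Fin m → Fin k → Fin n × Bool,
      1 - chi (Set.univ ∩ ⋂ i, cl (lit0 (Fin n)) k (F i)) ≤
        ∑ j ∈ Icc 1 m, ∑ J ∈ powersetCard j (univ : Finset (Fin m)),
          ∑ W ∈ powersetCard j (univ : Finset (Fin n)), ∏ i, if i ∈ J then g W (F i) else 1 := by
    intro F
    have hnn : ∀ (J : Finset (Fin m)) (W : Finset (Fin n)),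
        0 ≤ ∏ i, if i ∈ J then g W (F i) else 1 := fun J W =>
      prod_nonneg fun i _ => by split_ifs; exacts [hg0 _ _, zero_le_one]
    by_cases h : ∀ J : Finset (Fin m),
        J.card ≤ (J.biUnion fun i => univ.image fun l => (F i l).1).card
    · rw [chi_of_nonempty (hall_sat F h), sub_self]
      exact sum_nonneg fun j _ => sum_nonneg fun J _ => sum_nonneg fun W _ => hnn J W
    · push Not at h
      obtain ⟨J, hJ⟩ := h
      have hJm : J.card ≤ m := by simpa using card_le_univ J
      obtain ⟨W, hW, hWc⟩ := exists_superset_card_eq hJ.le (by simp; omega)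
      have e1 : (∏ i, if i ∈ J then g W (F i) else 1) = 1 := by
        refine prod_eq_one fun i _ => ?_
        split_ifs with hi
        · refine prod_eq_one fun l _ => if_pos (hW ?_)
          simp only [mem_biUnion, mem_image, mem_univ, true_and]
          exact ⟨i, hi, l, rfl⟩
        · rfl
      calc 1 - chi _ ≤ 1 := by linarith [chi_nonneg (Set.univ ∩ ⋂ i, cl (lit0 (Fin n)) k (F i))]
        _ = ∏ i, if i ∈ J then g W (F i) else 1 := e1.symm
        _ ≤ ∑ W ∈ powersetCard J.card (univ : Finset (Fin n)),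
              ∏ i, if i ∈ J then g W (F i) else 1 :=
            single_le_sum (f := fun W => ∏ i, if i ∈ J then g W (F i) else 1)
              (fun W _ => hnn J W) (by simp [hWc])
        _ ≤ ∑ J ∈ powersetCard J.card (univ : Finset (Fin m)),
              ∑ W ∈ powersetCard J.card (univ : Finset (Fin n)),
                ∏ i, if i ∈ J then g W (F i) else 1 :=
            single_le_sum (f := fun J : Finset (Fin m) =>
              ∑ W ∈ powersetCard J.card (univ : Finset (Fin n)),
                ∏ i, if i ∈ J then g W (F i) else 1)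
              (fun J _ => sum_nonneg fun W _ => hnn J W) (by simp)
        _ = ∑ J' ∈ powersetCard J.card (univ : Finset (Fin m)),
              ∑ W ∈ powersetCard J.card (univ : Finset (Fin n)),
                ∏ i, if i ∈ J' then g W (F i) else 1 := by
            refine sum_congr rfl fun J' hJ' => ?_
            rw [(mem_powersetCard.1 hJ').2]
        _ ≤ _ :=
            single_le_sum (f := fun j => ∑ J ∈ powersetCard j (univ : Finset (Fin m)),
              ∑ W ∈ powersetCard j (univ : Finset (Fin n)), ∏ i, if i ∈ J then g W (F i) else 1)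
              (fun j _ => sum_nonneg fun J _ => sum_nonneg fun W _ => hnn J W)
              (by rw [mem_Icc]; omega)
  have h2 : 1 - PP (Fin n) k m ≤ ∑ j ∈ Icc 1 m, ((1 : ℝ) / 3) ^ j := by
    unfold PP TT
    rw [pow_op_apply]
    refine le_trans (le_of_eq ?_) ((expect_le_expect (s := univ) fun F _ => h1 F).trans ?_)
    · rw [expect_sub_distrib, Fintype.expect_const]
    rw [expect_sum_comm]
    refine sum_le_sum fun j hj => ?_
    simp_rw [expect_sum_comm]
    refine le_trans (le_of_eq ?_) (numeric_term hk hn hm (mem_Icc.1 hj).2)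
    rw [sum_congr rfl fun J hJ => sum_congr rfl fun W hW =>
      (show 𝔼 F : Fin m → Fin k → Fin n × Bool, (∏ i, if i ∈ J then g W (F i) else 1) =
        (((j : ℝ) / n) ^ k) ^ j from ?_)]
    · simp [card_powersetCard, mul_assoc]
    · rw [expect_pi_prod (fun i t => if i ∈ J then g W t else 1)]
      have : ∀ i, 𝔼 t, (if i ∈ J then g W t else 1) =
          if i ∈ J then ((j : ℝ) / n) ^ k else 1 := by
        intro i
        split_ifs
        · rw [hg, (mem_powersetCard.1 hW).2]
        · exact Fintype.expect_const _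
      simp only [this]
      rw [prod_ite_mem, univ_inter, prod_const, (mem_powersetCard.1 hJ).2]
  linarith [geom_third m]

end Lower

end Vale.Agent.P170
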