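import Mathlib

namespace Vale.Agent.P170

/-- A literal on the variables `x_0, ..., x_{n-1}` is a pair `(i, s)`: `(i, true)` is `x_i` and
`(i, false)` is its negation.  A proper `k`-clause is a set of `k` literals on distinct
variables. -/
def ProperClause (k n : ℕ) : Type :=
  {C : Finset (Fin n × Bool) // C.card = k ∧ ∀ a ∈ C, ∀ b ∈ C, a.1 = b.1 → a = b}

/-- The conjunction of the clauses `F 0, ..., F (m-1)` is satisfiable: some assignment makes at
least one literal of every clause true. -/
def Satisfiable {k n m : ℕ} (F : Fin m → ProperClause k n) : Prop :=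
  ∃ σ : Fin n → Bool, ∀ i : Fin m, ∃ l ∈ (F i).1, σ l.1 = l.2

/-- `P_{k,n}(m)`: the probability that `m` independent uniform proper `k`-clauses (sampled with
replacement) are simultaneously satisfiable, as the fraction of satisfiable `m`-tuples. -/
noncomputable def satProb (k n m : ℕ) : ℝ :=
  (Nat.card {F : Fin m → ProperClause k n // Satisfiable F} : ℝ) /
    (Nat.card (Fin m → ProperClause k n) : ℝ)

end Vale.Agent.P170
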