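import Vale.Agent.P170.Backbone

/-!
# Interpolation: splitting the variables into two blocks
-/

open Finset
open scoped BigOperators

namespace Vale.Agent.P170

section Product

variable {X X₁ X₂ Ω₁ Ω₂ : Type*} [Fintype Ω₁] [Fintype Ω₂]
  (π₁ : X → X₁) (π₂ : X → X₂) (hπ : ∀ x₁ x₂, ∃ x, π₁ x = x₁ ∧ π₂ x = x₂)
  (c₁ : Ω₁ → Set X₁) (c₂ : Ω₂ → Set X₂)

include hπ

lemma chi_prod (S₁ : Set X₁) (S₂ : Set X₂) :
    chi (π₁ ⁻¹' S₁ ∩ π₂ ⁻¹' S₂) = chi S₁ * chi S₂ := by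
  rcases S₁.eq_empty_or_nonempty with rfl | ⟨x₁, h₁⟩
  · simp [chi_empty]
  rcases S₂.eq_empty_or_nonempty with rfl | ⟨x₂, h₂⟩
  · simp [chi_empty]
  obtain ⟨x, rfl, rfl⟩ := hπ x₁ x₂
  have h : (π₁ ⁻¹' S₁ ∩ π₂ ⁻¹' S₂).Nonempty := ⟨x, h₁, h₂⟩
  rw [chi_of_nonempty h, chi_of_nonempty ⟨_, h₁⟩, chi_of_nonempty ⟨_, h₂⟩, one_mul]

lemma pow_prod_right (j : ℕ) (S₁ : Set X₁) (S₂ : Set X₂) :
    (op (fun ω => π₂ ⁻¹' c₂ ω) ^ j) chi (π₁ ⁻¹' S₁ ∩ π₂ ⁻¹' S₂) =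
      chi S₁ * (op c₂ ^ j) chi S₂ := by
  induction j generalizing S₂ with
  | zero => simpa using chi_prod π₁ π₂ hπ S₁ S₂
  | succ j ih =>
    rw [pow_succ', pow_succ', Module.End.mul_apply, Module.End.mul_apply, op_apply, op_apply,
      mul_expect]
    refine expect_congr rfl fun ω _ => ?_
    rw [Set.inter_assoc, ← Set.preimage_inter, ih]

lemma pow_prod (i j : ℕ) (S₁ : Set X₁) (S₂ : Set X₂) :
    (op (fun ω => π₁ ⁻¹' c₁ ω) ^ i) ((op (fun ω => π₂ ⁻¹' c₂ ω) ^ j) chi)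
      (π₁ ⁻¹' S₁ ∩ π₂ ⁻¹' S₂) = (op c₁ ^ i) chi S₁ * (op c₂ ^ j) chi S₂ := by
  induction i generalizing S₁ with
  | zero => simpa using pow_prod_right π₁ π₂ hπ c₂ j S₁ S₂
  | succ i ih =>
    rw [pow_succ', pow_succ', Module.End.mul_apply, Module.End.mul_apply, op_apply, op_apply,
      expect_mul]
    refine expect_congr rfl fun ω _ => ?_
    rw [Set.inter_right_comm, ← Set.preimage_inter, ih]

end Product

/-- Chebyshev for the binomial mixture of two commuting operators. -/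
lemma mixture_ge {X : Type*} {T₁ T₂ : Module.End ℝ (Set X → ℝ)} (h₁ : Good T₁) (h₂ : Good T₂)
    (hc : Commute T₁ T₂) {p q t γ : ℝ} (hp : 0 ≤ p) (hq : 0 ≤ q) (hpq : p + q = 1) (ht : 0 < t)
    (hγ : 0 ≤ γ) (S : Set X) (m₀ : ℕ)
    (H : ∀ i j : ℕ, (i : ℝ) ≤ p * m₀ + t → (j : ℝ) ≤ q * m₀ + t →
      γ ≤ (T₁ ^ i) ((T₂ ^ j) chi) S) :
    γ * (1 - m₀ * (p * q) / t ^ 2) ≤ ((p • T₁ + q • T₂) ^ m₀) chi S := by
  set B := p • T₁ + q • T₂ with hB
  have key : ∀ m i j : ℕ, i + j + m = m₀ →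
      γ * (1 - ((q * i - p * j) ^ 2 + m * (p * q)) / t ^ 2) ≤
        (B ^ m) ((T₁ ^ i) ((T₂ ^ j) chi)) S := by
    intro m
    induction m with
    | zero =>
      intro i j hij
      have hij' : (m₀ : ℝ) = i + j := by rw [← hij]; push_cast; ring
      simp only [pow_zero, Module.End.one_apply, Nat.cast_zero, zero_mul, add_zero]
      by_cases hx : t ^ 2 ≤ (q * i - p * j) ^ 2
      · have e1 : 1 ≤ (q * i - p * j) ^ 2 / t ^ 2 := by
          rw [le_div_iff₀ (by positivity)]; linarith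
        have e2 : 0 ≤ (T₁ ^ i) ((T₂ ^ j) chi) S := ((h₁.pow i).mul (h₂.pow j)).chi_nonneg S
        nlinarith
      · push Not at hx
        have e1 := abs_lt_of_sq_lt_sq' hx ht.le
        have hq' : q = 1 - p := by linarith
        have e2 := H i j (by rw [hij']; rw [hq'] at e1; nlinarith [e1.2])
          (by rw [hij']; rw [hq'] at e1 ⊢; nlinarith [e1.1])
        have e3 : 0 ≤ (q * i - p * j) ^ 2 / t ^ 2 := by positivity
        nlinarith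
    | succ m ih =>
      intro i j hij
      have e1 := ih (i + 1) j (by omega)
      have e2 := ih i (j + 1) (by omega)
      have e3 : B ((T₁ ^ i) ((T₂ ^ j) chi)) =
          p • (T₁ ^ (i + 1)) ((T₂ ^ j) chi) + q • (T₁ ^ i) ((T₂ ^ (j + 1)) chi) := by
        have e4 : T₂ ((T₁ ^ i) ((T₂ ^ j) chi)) = (T₁ ^ i) (T₂ ((T₂ ^ j) chi)) :=
          congrArg (fun U : Module.End ℝ (Set X → ℝ) => U ((T₂ ^ j) chi))
            (hc.pow_left i).eq.symm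
        rw [hB, LinearMap.add_apply, LinearMap.smul_apply, LinearMap.smul_apply, e4, pow_succ',
          pow_succ']
        rfl
      rw [pow_succ B m, Module.End.mul_apply, e3, map_add, map_smul, map_smul]
      simp only [Pi.add_apply, Pi.smul_apply, smul_eq_mul]
      refine le_trans (le_of_eq ?_) (add_le_add (mul_le_mul_of_nonneg_left e1 hp)
        (mul_le_mul_of_nonneg_left e2 hq))
      have hq' : q = 1 - p := by linarith
      subst hq'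
      push_cast
      field_simp
      ring
  simpa using key m₀ 0 0 (by simp)

section Split

variable (n₁ n₂ k : ℕ)

/-- Restriction of an assignment to the first block. -/
def pr₁ (σ : Fin (n₁ + n₂) → Bool) : Fin n₁ → Bool := fun i => σ (Fin.castAdd n₂ i)

/-- Restriction of an assignment to the second block. -/
def pr₂ (σ : Fin (n₁ + n₂) → Bool) : Fin n₂ → Bool := fun i => σ (Fin.natAdd n₁ i)

lemma pr_surj (x₁ : Fin n₁ → Bool) (x₂ : Fin n₂ → Bool) :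
    ∃ x, pr₁ n₁ n₂ x = x₁ ∧ pr₂ n₁ n₂ x = x₂ :=
  ⟨Fin.append x₁ x₂, by ext i; simp [pr₁], by ext i; simp [pr₂]⟩

/-- Literals of the first block. -/
def lit₁ : Fin n₁ × Bool → Set (Fin (n₁ + n₂) → Bool) := fun l => pr₁ n₁ n₂ ⁻¹' lit0 _ l

/-- Literals of the second block. -/
def lit₂ : Fin n₂ × Bool → Set (Fin (n₁ + n₂) → Bool) := fun l => pr₂ n₁ n₂ ⁻¹' lit0 _ l

lemma TT_lit₁ : TT (lit₁ n₁ n₂) k = op (fun t => pr₁ n₁ n₂ ⁻¹' cl (lit0 _) k t) := by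
  unfold TT
  congr 1
  ext t : 1
  simp [cl, lit₁]

lemma TT_lit₂ : TT (lit₂ n₁ n₂) k = op (fun t => pr₂ n₁ n₂ ⁻¹' cl (lit0 _) k t) := by
  unfold TT
  congr 1
  ext t : 1
  simp [cl, lit₂]

lemma split_pow (i j : ℕ) :
    (TT (lit₁ n₁ n₂) k ^ i) ((TT (lit₂ n₁ n₂) k ^ j) chi) Set.univ =
      PP (Fin n₁) k i * PP (Fin n₂) k j := by
  have := pow_prod (pr₁ n₁ n₂) (pr₂ n₁ n₂) (pr_surj n₁ n₂) (cl (lit0 _) k) (cl (lit0 _) k) i j
    Set.univ Set.univ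
  rw [TT_lit₁, TT_lit₂]
  simpa [PP, TT] using this

variable {n₁ n₂}

lemma bb_split (h₁ : 0 < n₁) (h₂ : 0 < n₂) (S : Set (Fin (n₁ + n₂) → Bool)) :
    bb (lit0 (Fin (n₁ + n₂))) S = (n₁ / (n₁ + n₂) : ℝ) * bb (lit₁ n₁ n₂) S +
      (n₂ / (n₁ + n₂) : ℝ) * bb (lit₂ n₁ n₂) S := by
  have e₁ : (0 : ℝ) < n₁ := by exact_mod_cast h₁
  have e₂ : (0 : ℝ) < n₂ := by exact_mod_cast h₂
  unfold bb
  simp only [Fintype.expect_eq_sum_div_card, Fintype.sum_prod_type, Fin.sum_univ_add,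
    Fintype.card_prod, Fintype.card_fin, Fintype.card_bool]
  push_cast
  field_simp
  rfl

lemma split_le (h₁ : 0 < n₁) (h₂ : 0 < n₂) (m : ℕ) :
    (((n₁ / (n₁ + n₂) : ℝ) • TT (lit₁ n₁ n₂) k + (n₂ / (n₁ + n₂) : ℝ) • TT (lit₂ n₁ n₂) k) ^ m)
      chi Set.univ ≤ PP (Fin (n₁ + n₂)) k m := by
  have : Nonempty (Fin n₁) := ⟨⟨0, h₁⟩⟩
  have : Nonempty (Fin n₂) := ⟨⟨0, h₂⟩⟩
  have : Nonempty (Fin (n₁ + n₂)) := ⟨⟨0, by omega⟩⟩
  have e₁ : (0 : ℝ) < n₁ := by exact_mod_cast h₁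
  have e₂ : (0 : ℝ) < n₂ := by exact_mod_cast h₂
  have hpq : (n₁ / (n₁ + n₂) : ℝ) + n₂ / (n₁ + n₂) = 1 := by field_simp
  refine pow_chi_le_pow_chi ((good_TT _ k).convex (good_TT _ k) (by positivity) (by positivity) hpq)
    (good_TT _ k) ?_ (fun S => ?_) m _
  · exact ((op_commute _ _).smul_left _).add_left ((op_commute _ _).smul_left _)
  · have := (convexOn_pow (𝕜 := ℝ) k).2 (bb_nonneg (lit₁ n₁ n₂) S) (bb_nonneg (lit₂ n₁ n₂) S)
      (show (0 : ℝ) ≤ n₁ / (n₁ + n₂) by positivity) (show (0 : ℝ) ≤ n₂ / (n₁ + n₂) by positivity)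
      hpq
    simp only [smul_eq_mul] at this
    rw [← bb_split h₁ h₂] at this
    rw [LinearMap.add_apply, LinearMap.smul_apply, LinearMap.smul_apply]
    simp only [Pi.add_apply, Pi.smul_apply, smul_eq_mul, TT_chi]
    nlinarith

lemma PP_antitone {V : Type*} [Fintype V] [Nonempty V] (k : ℕ) : Antitone (PP V k) :=
  (good_TT _ k).antitone _

lemma PP_nonneg {V : Type*} [Fintype V] [Nonempty V] (k m : ℕ) : 0 ≤ PP V k m :=
  ((good_TT _ k).pow m).chi_nonneg _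

lemma PP_le_one {V : Type*} [Fintype V] [Nonempty V] (k m : ℕ) : PP V k m ≤ 1 :=
  ((good_TT _ k).pow m).chi_le_one _

lemma PP_zero (V : Type*) [Fintype V] (k : ℕ) : PP V k 0 = 1 := by
  simp [PP, chi_of_nonempty]

/-- Superadditivity with a Chebyshev window. -/
theorem PP_add_ge (h₁ : 0 < n₁) (h₂ : 0 < n₂) (m a₁ a₂ : ℕ) {t : ℝ} (ht : 0 < t)
    (ha₁ : (n₁ / (n₁ + n₂) : ℝ) * m + t ≤ a₁) (ha₂ : (n₂ / (n₁ + n₂) : ℝ) * m + t ≤ a₂) :
    PP (Fin n₁) k a₁ * PP (Fin n₂) k a₂ *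
      (1 - m * ((n₁ / (n₁ + n₂) : ℝ) * (n₂ / (n₁ + n₂))) / t ^ 2) ≤ PP (Fin (n₁ + n₂)) k m := by
  have : Nonempty (Fin n₁) := ⟨⟨0, h₁⟩⟩
  have : Nonempty (Fin n₂) := ⟨⟨0, h₂⟩⟩
  have e₁ : (0 : ℝ) < n₁ := by exact_mod_cast h₁
  have e₂ : (0 : ℝ) < n₂ := by exact_mod_cast h₂
  have hpq : (n₁ / (n₁ + n₂) : ℝ) + n₂ / (n₁ + n₂) = 1 := by field_simp
  refine le_trans ?_ (split_le k h₁ h₂ m)
  refine mixture_ge (good_TT _ k) (good_TT _ k) (op_commute _ _) (by positivity) (by positivity)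
    hpq ht (mul_nonneg (PP_nonneg k _) (PP_nonneg k _)) _ m fun i j hi hj => ?_
  rw [split_pow]
  have hi' : i ≤ a₁ := by exact_mod_cast hi.trans ha₁
  have hj' : j ≤ a₂ := by exact_mod_cast hj.trans ha₂
  exact mul_le_mul (PP_antitone k hi') (PP_antitone k hj') (PP_nonneg k _) (PP_nonneg k _)

/-- Adding variables costs at most the probability that no clause uses the new block. -/
theorem PP_add_ge' (h₁ : 0 < n₁) (h₂ : 0 < n₂) (m : ℕ) :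
    (n₁ / (n₁ + n₂) : ℝ) ^ m * PP (Fin n₁) k m ≤ PP (Fin (n₁ + n₂)) k m := by
  have : Nonempty (Fin n₁) := ⟨⟨0, h₁⟩⟩
  have : Nonempty (Fin n₂) := ⟨⟨0, h₂⟩⟩
  have e₁ : (0 : ℝ) < n₁ := by exact_mod_cast h₁
  have e₂ : (0 : ℝ) < n₂ := by exact_mod_cast h₂
  have hpq : (n₁ / (n₁ + n₂) : ℝ) + n₂ / (n₁ + n₂) = 1 := by field_simp
  refine le_trans ?_ (split_le k h₁ h₂ m)
  have h := split_pow n₁ n₂ k m 0
  rw [PP_zero, mul_one, pow_zero, Module.End.one_apply] at h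
  rw [← h]
  refine pow_ge_of_ge ((good_TT _ k).convex (good_TT _ k) (by positivity) (by positivity) hpq)
    (good_TT _ k) (by positivity) (fun f hf S => ?_) chi chi_nonneg m _
  rw [LinearMap.add_apply, LinearMap.smul_apply, LinearMap.smul_apply]
  simp only [Pi.add_apply, Pi.smul_apply, smul_eq_mul]
  have := (good_TT (lit₂ n₁ n₂) k).const_le hf S
  have : 0 ≤ (n₂ / (n₁ + n₂) : ℝ) * TT (lit₂ n₁ n₂) k f S := by positivity
  linarith

end Split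

end Vale.Agent.P170
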