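import Vale.Agent.P170.Bounds

/-!
# Existence of the limiting threshold in the independent-literal model
-/

open Finset Filter Topology
open scoped BigOperators

namespace Vale.Agent.P170

/-- Sixth root. -/
noncomputable def rt (n : ℕ) : ℝ := (n : ℝ) ^ ((6 : ℕ) : ℝ)⁻¹

lemma rt_pow (n : ℕ) : rt n ^ 6 = n :=
  Real.rpow_inv_natCast_pow (Nat.cast_nonneg n) (by norm_num)

lemma rt_nonneg (n : ℕ) : 0 ≤ rt n := Real.rpow_nonneg (Nat.cast_nonneg n) _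

lemma le_rt {n : ℕ} {y : ℝ} (h : y ^ 6 ≤ n) : y ≤ rt n :=
  le_of_pow_le_pow_left₀ (n := 6) (by norm_num) (rt_nonneg n) (by rwa [rt_pow])

lemma one_le_rt {n : ℕ} (hn : 1 ≤ n) : 1 ≤ rt n := le_rt (by simpa using hn)

lemma rt_mono {n n' : ℕ} (h : n ≤ n') : rt n ≤ rt n' :=
  le_rt (by rw [rt_pow]; exact_mod_cast h)

lemma tendsto_rt : Tendsto rt atTop atTop :=
  (tendsto_rpow_atTop (by positivity)).comp tendsto_natCast_atTop_atTop

lemma tendsto_zero_of_le (f : ℕ → ℝ) (A : ℝ) (h0 : ∀ᶠ n in atTop, 0 ≤ f n)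
    (h : ∀ᶠ n : ℕ in atTop, (n : ℝ) ^ 2 * f n ≤ A * rt n ^ 10) : Tendsto f atTop (𝓝 0) := by
  have h1 : Tendsto (fun n => A / rt n ^ 2) atTop (𝓝 0) :=
    tendsto_const_nhds.div_atTop ((tendsto_pow_atTop two_ne_zero).comp tendsto_rt)
  refine squeeze_zero' h0 ?_ h1
  filter_upwards [h, eventually_ge_atTop 1] with n hn hn1
  have hx := one_le_rt hn1
  rw [le_div_iff₀ (by positivity)]
  rw [← rt_pow n] at hn
  have h2 : (0 : ℝ) < rt n ^ 10 := by positivity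
  refine le_of_mul_le_mul_right ?_ h2
  calc f n * rt n ^ 2 * rt n ^ 10 = (rt n ^ 6) ^ 2 * f n := by ring
    _ ≤ _ := hn

lemma exp_le_one_sub_pow {u : ℝ} (h0 : 0 ≤ u) (h1 : u ≤ 1 / 2) (m : ℕ) :
    Real.exp (-(2 * u * m)) ≤ (1 - u) ^ m := by
  have h2 : Real.exp (-(2 * u)) ≤ 1 - u := by
    rw [Real.exp_neg, inv_le_comm₀ (Real.exp_pos _) (by linarith), inv_le_iff_one_le_mul₀ (by linarith)]
    have := Real.add_one_le_exp (2 * u)
    nlinarith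
  calc Real.exp (-(2 * u * m)) = Real.exp (-(2 * u)) ^ m := by
        rw [← Real.exp_nat_mul]; congr 1; ring
    _ ≤ _ := pow_le_pow_left₀ (Real.exp_pos _).le h2 m

variable {k : ℕ}

lemma fin_nonempty {n : ℕ} (hn : 1 ≤ n) : Nonempty (Fin n) := ⟨⟨0, hn⟩⟩

lemma window' (hk : 3 ≤ k) {K : ℕ} (hK : 1 ≤ K) : ∃ C : ℝ, 0 < C ∧ ∀ n : ℕ, 1 ≤ n →
    ∀ a b : ℕ, b ≤ K * n → ∀ w : ℝ, 0 ≤ w → (a : ℝ) + 2 * w + 2 ≤ b →
      w ^ 2 * (PP (Fin n) k b * (1 - PP (Fin n) k a)) ≤ C * rt n ^ 10 := by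
  refine ⟨2 * k * K ^ 3 * (2 ^ k + 4 * K) * 4, by positivity, fun n hn a b hb w hw hab => ?_⟩
  have := fin_nonempty hn
  have hx := one_le_rt hn
  set x := rt n with hxdef
  have hx6 : x ^ 6 = n := rt_pow n
  set L := ⌈x ^ 2⌉₊ with hL
  have hx2 : 1 ≤ x ^ 2 := one_le_pow₀ hx
  have hL1 : 1 ≤ L := Nat.one_le_ceil_iff.2 (by linarith)
  have hLx : x ^ 2 ≤ L := Nat.le_ceil _
  have hLx' : (L : ℝ) ≤ 2 * x ^ 2 := by
    have := Nat.ceil_lt_add_one (show 0 ≤ x ^ 2 by positivity)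
    linarith
  have hLN : L ≤ n := by
    rw [hL, Nat.ceil_le, ← hx6]
    exact pow_le_pow_right₀ hx (by norm_num)
  have hNL : n ≤ L ^ 3 := by
    have : (n : ℝ) ≤ L ^ 3 := by
      rw [← hx6]
      calc x ^ 6 = (x ^ 2) ^ 3 := by ring
        _ ≤ _ := by gcongr
    exact_mod_cast this
  have hg : a + 2 * ⌈w⌉₊ ≤ b := by
    have := Nat.ceil_lt_add_one hw
    have h2 : ((a + 2 * ⌈w⌉₊ : ℕ) : ℝ) ≤ b := by push_cast; linarith
    exact_mod_cast h2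
  have h1 := window (V := Fin n) hk hK hL1 (by simpa using hLN) (by simpa using hNL) a ⌈w⌉₊
    (by simpa using hg.trans hb)
  rw [Fintype.card_fin] at h1
  have h2 : 0 ≤ 1 - PP (Fin n) k a := sub_nonneg.2 (PP_le_one k a)
  have h3 := PP_nonneg (V := Fin n) k b
  calc w ^ 2 * (PP (Fin n) k b * (1 - PP (Fin n) k a))
      ≤ (⌈w⌉₊ : ℝ) ^ 2 * (PP (Fin n) k (a + 2 * ⌈w⌉₊) * (1 - PP (Fin n) k a)) := by
        gcongr
        · exact Nat.le_ceil w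
        · exact PP_antitone k hg
    _ ≤ (2 : ℝ) * k * K ^ 3 * (2 ^ k + 4 * K) * (n * L ^ 2) := h1
    _ ≤ (2 : ℝ) * k * K ^ 3 * (2 ^ k + 4 * K) * (x ^ 6 * (2 * x ^ 2) ^ 2) := by
        rw [hx6]; gcongr
    _ = _ := by ring

/-- Density `c` is good at size `n`. -/
def GG (k n : ℕ) (c : ℝ) : Prop := 1 / 2 ≤ PP (Fin n) k ⌊c * n⌋₊

lemma GG.mono {n : ℕ} (hn : 1 ≤ n) {c c' : ℝ} (h : GG k n c) (hc : c' ≤ c) : GG k n c' := by
  have := fin_nonempty hn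
  exact h.trans (PP_antitone k (Nat.floor_mono (by gcongr)))

lemma floor_le_mul {n K : ℕ} {c : ℝ} (hc : c ≤ K) : ⌊c * n⌋₊ ≤ K * n := by
  refine Nat.floor_le_of_le ?_
  push_cast
  gcongr

lemma step (hk : 3 ≤ k) {K : ℕ} (hK : 1 ≤ K) : ∃ D : ℝ, 0 < D ∧ ∀ n₁ n₂ : ℕ, 1 ≤ n₁ → n₁ ≤ n₂ →
    ∀ c : ℝ, c ≤ K → GG k n₁ c → GG k n₂ c → GG k (n₁ + n₂) (c - D / rt n₁) := by
  obtain ⟨C, hC, hw⟩ := window' hk hK
  have hK' : (1 : ℝ) ≤ K := by exact_mod_cast hK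
  refine ⟨3 * K + 4 + 2 * (4 * (C + 1)), by positivity, fun n₁ n₂ h₁ h₁₂ c hc g₁ g₂ => ?_⟩
  set D : ℝ := 3 * K + 4 + 2 * (4 * (C + 1)) with hD
  have h₂ : 1 ≤ n₂ := h₁.trans h₁₂
  have e₁ : (0 : ℝ) < n₁ := by exact_mod_cast h₁
  have e₂ : (0 : ℝ) < n₂ := by exact_mod_cast h₂
  have hx₁ := one_le_rt h₁
  set c' := c - D / rt n₁ with hc'
  unfold GG
  rcases le_or_gt c' 0 with hneg | hpos
  · rw [Nat.floor_of_nonpos (mul_nonpos_of_nonpos_of_nonneg hneg (Nat.cast_nonneg _)), PP_zero]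
    norm_num
  set m := ⌊c' * ((n₁ + n₂ : ℕ) : ℝ)⌋₊ with hm
  have hm1 : (m : ℝ) ≤ c' * (n₁ + n₂) := by
    have := Nat.floor_le (show 0 ≤ c' * ((n₁ + n₂ : ℕ) : ℝ) by positivity)
    push_cast at this ⊢
    exact_mod_cast this
  set t : ℝ := 3 * K * rt n₁ ^ 3 with ht
  have ht0 : 0 < t := by positivity
  have key : ∀ n : ℕ, n₁ ≤ n → GG k n c →
      7 / 8 ≤ PP (Fin n) k ⌈(n / (n₁ + n₂) : ℝ) * m + t⌉₊ := by
    intro n hn g
    have hn1 : 1 ≤ n := h₁.trans hn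
    have := fin_nonempty hn1
    have hx := one_le_rt hn1
    have hxx := rt_mono hn
    have hx5 : 1 ≤ rt n ^ 5 := one_le_pow₀ hx
    have f1 : (n / (n₁ + n₂) : ℝ) * m ≤ c' * n := by
      rw [div_mul_eq_mul_div, div_le_iff₀ (by positivity)]
      calc (n : ℝ) * m ≤ n * (c' * (n₁ + n₂)) := by gcongr
        _ = _ := by ring
    have f2 : (⌈(n / (n₁ + n₂) : ℝ) * m + t⌉₊ : ℝ) < (n / (n₁ + n₂) : ℝ) * m + t + 1 :=
      Nat.ceil_lt_add_one (by positivity)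
    have f3 : c * n < ⌊c * n⌋₊ + 1 := Nat.lt_floor_add_one _
    have f4 : t ≤ 3 * K * rt n ^ 5 := by
      have : rt n₁ ^ 3 ≤ rt n ^ 5 :=
        (pow_le_pow_left₀ (rt_nonneg _) hxx 3).trans (pow_le_pow_right₀ hx (by norm_num))
      rw [ht]; gcongr
    have f5 : D * rt n ^ 5 ≤ D / rt n₁ * n := by
      rw [div_mul_eq_mul_div, le_div_iff₀ (by positivity), ← rt_pow n]
      calc D * rt n ^ 5 * rt n₁ ≤ D * rt n ^ 5 * rt n := by gcongr
        _ = _ := by ring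
    have f6 := hw n hn1 ⌈(n / (n₁ + n₂) : ℝ) * m + t⌉₊ ⌊c * n⌋₊ (floor_le_mul hc)
      (4 * (C + 1) * rt n ^ 5) (by positivity) (by
        have : c' * n = c * n - D / rt n₁ * n := by rw [hc']; ring
        rw [hD] at f5
        nlinarith)
    set P := PP (Fin n) k ⌈(n / (n₁ + n₂) : ℝ) * m + t⌉₊
    have f7 : 0 ≤ 1 - P := sub_nonneg.2 (PP_le_one k _)
    have f8 : (4 * (C + 1) * rt n ^ 5) ^ 2 * (1 / 2 * (1 - P)) ≤ C * rt n ^ 10 := by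
      refine le_trans ?_ f6
      gcongr
      exact g
    have f9 : (8 * (C + 1) ^ 2 * (1 - P)) * rt n ^ 10 ≤ C * rt n ^ 10 := by
      refine le_trans (le_of_eq ?_) f8
      ring
    have f10 := le_of_mul_le_mul_right f9 (by positivity)
    by_contra hcon
    push Not at hcon
    have : 8 * (C + 1) ^ 2 * (1 / 8) ≤ 8 * (C + 1) ^ 2 * (1 - P) := by
      gcongr; linarith
    nlinarith
  have k₁ := key n₁ le_rfl g₁
  have k₂ := key n₂ h₁₂ g₂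
  have main := PP_add_ge k h₁ h₂ m _ _ ht0 (Nat.le_ceil _) (Nat.le_ceil _)
  refine le_trans ?_ main
  have v1 : m * ((n₁ / (n₁ + n₂) : ℝ) * (n₂ / (n₁ + n₂))) / t ^ 2 ≤ 1 / 9 := by
    rw [div_le_iff₀ (by positivity)]
    have u1 : (n₂ / (n₁ + n₂) : ℝ) ≤ 1 := by rw [div_le_one (by positivity)]; linarith
    have u2 : c' ≤ K := by
      have : 0 ≤ D / rt n₁ := by positivity
      linarith
    have u3 : (m : ℝ) * (n₁ / (n₁ + n₂)) ≤ K * n₁ := by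
      calc (m : ℝ) * (n₁ / (n₁ + n₂)) ≤ (K * (n₁ + n₂)) * (n₁ / (n₁ + n₂)) := by
            gcongr; exact hm1.trans (by gcongr)
        _ = _ := by field_simp
    calc m * ((n₁ / (n₁ + n₂) : ℝ) * (n₂ / (n₁ + n₂))) ≤ m * ((n₁ / (n₁ + n₂) : ℝ) * 1) := by
          gcongr
      _ ≤ K * n₁ := by rw [mul_one]; exact u3
      _ ≤ K ^ 2 * n₁ := by gcongr; nlinarith
      _ = _ := by rw [ht, ← rt_pow n₁]; ring
  calc (1 : ℝ) / 2 ≤ 7 / 8 * (7 / 8) * (8 / 9) := by norm_num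
    _ ≤ _ := by
      gcongr
      linarith

lemma iterate (hk : 3 ≤ k) {K : ℕ} (hK : 1 ≤ K) : ∃ κ : ℝ, 0 < κ ∧ ∀ n₀ : ℕ, 1 ≤ n₀ →
    ∀ c : ℝ, c ≤ K → GG k n₀ c → ∀ q : ℕ, 1 ≤ q → GG k (q * n₀) (c - κ / rt n₀) := by
  obtain ⟨D, hD, hs⟩ := step hk hK
  refine ⟨42 * D, by positivity, fun n₀ h₀ c hc g => ?_⟩
  have key : ∀ q : ℕ, 1 ≤ q → GG k (q * n₀) (c - 42 * D / rt n₀ + 42 * D / rt (q * n₀)) := by
    intro q
    induction q using Nat.strong_induction_on with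
    | _ q ih =>
      intro hq
      rcases hq.eq_or_lt with rfl | hq
      · simpa using g
      obtain ⟨q₁, q₂, rfl, h1, h12, h21, h3⟩ : ∃ q₁ q₂, q = q₁ + q₂ ∧ 1 ≤ q₁ ∧ q₁ ≤ q₂ ∧
          q₂ ≤ 2 * q₁ ∧ 3 * q₂ ≤ 2 * q := ⟨q / 2, q - q / 2, by omega⟩
      have g₁ := ih q₁ (by omega) h1
      have g₂ := ih q₂ (by omega) (by omega)
      have n1 : 1 ≤ q₁ * n₀ := Nat.mul_pos h1 h₀
      have n12 : q₁ * n₀ ≤ q₂ * n₀ := Nat.mul_le_mul_right _ h12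
      have n0 : n₀ ≤ q₂ * n₀ := Nat.le_mul_of_pos_left _ (by omega)
      have x1 := one_le_rt n1
      have x0 := one_le_rt h₀
      have x12 := rt_mono n12
      have x02 := rt_mono n0
      have y6 := rt_pow (q₂ * n₀)
      set y := rt (q₂ * n₀) with hy
      have hy0 : 0 < y := by linarith
      have g₁' : GG k (q₁ * n₀) (c - 42 * D / rt n₀ + 42 * D / y) := by
        refine g₁.mono n1 ?_
        gcongr
      have g₃ := hs _ _ n1 n12 _ (by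
        have : 42 * D / y ≤ 42 * D / rt n₀ := by gcongr
        linarith) g₁' g₂
      rw [← add_mul] at g₃
      refine g₃.mono (Nat.mul_pos (by omega) h₀) ?_
      have hn₀ : (0 : ℝ) ≤ n₀ := Nat.cast_nonneg _
      have a1 : 21 / 20 * y ≤ rt ((q₁ + q₂) * n₀) := by
        refine le_rt ?_
        rw [mul_pow, y6]
        have : (3 * q₂ : ℝ) ≤ 2 * (q₁ + q₂) := by exact_mod_cast h3
        have h4 : (0 : ℝ) ≤ q₂ := Nat.cast_nonneg _
        push_cast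
        nlinarith [mul_le_mul_of_nonneg_right this hn₀, mul_nonneg h4 hn₀]
      have a2 : 1 / 2 * y ≤ rt (q₁ * n₀) := by
        refine le_rt ?_
        rw [mul_pow, y6]
        have : (q₂ : ℝ) ≤ 2 * q₁ := by exact_mod_cast h21
        have h4 : (0 : ℝ) ≤ q₁ := Nat.cast_nonneg _
        push_cast
        nlinarith [mul_le_mul_of_nonneg_right this hn₀, mul_nonneg h4 hn₀]
      have b1 : 42 * D / rt ((q₁ + q₂) * n₀) ≤ 42 * D / (21 / 20 * y) := by gcongr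
      have b2 : D / rt (q₁ * n₀) ≤ D / (1 / 2 * y) := by gcongr
      have b3 : 42 * D / (21 / 20 * y) + D / (1 / 2 * y) = 42 * D / y := by
        field_simp; norm_num
      linarith
  intro q hq
  refine (key q hq).mono (Nat.mul_pos hq h₀) ?_
  have : 0 ≤ 42 * D / rt (q * n₀) := div_nonneg (by positivity) (rt_nonneg _)
  linarith

lemma eventually_le_mul {δ : ℝ} (hδ : 0 < δ) (B : ℝ) : ∀ᶠ n : ℕ in atTop, B ≤ δ * n :=
  (tendsto_natCast_atTop_atTop.const_mul_atTop hδ).eventually_ge_atTop B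

lemma tendsto_one_of_multiples (hk : 3 ≤ k) {K : ℕ} (hK : 1 ≤ K) {n₀ : ℕ} (h₀ : 1 ≤ n₀)
    {c c₂ : ℝ} (hc : 0 ≤ c) (hcc : c < c₂) (hc₂ : c₂ ≤ K)
    (g : ∀ q : ℕ, 1 ≤ q → GG k (q * n₀) c₂) :
    Tendsto (fun n : ℕ => PP (Fin n) k ⌊c * n⌋₊) atTop (𝓝 1) := by
  obtain ⟨C, hC, hw⟩ := window' hk hK
  set δ := (c₂ - c) / 4 with hδ
  have hδ0 : 0 < δ := by rw [hδ]; linarith
  set η := Real.exp (-(2 * n₀ * K)) with hη
  have hη0 : 0 < η := Real.exp_pos _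
  have h := tendsto_zero_of_le (fun n : ℕ => 1 - PP (Fin n) k ⌊c * n⌋₊) (2 * C / (η * δ ^ 2))
    ?_ ?_
  · simpa using h.const_sub 1
  · filter_upwards [eventually_ge_atTop 1] with n hn
    have := fin_nonempty hn
    exact sub_nonneg.2 (PP_le_one k _)
  filter_upwards [eventually_ge_atTop (2 * n₀), eventually_le_mul (δ := 2 * δ) (by positivity)
    (c₂ * n₀ + 3)] with n hn hn'
  have hn1 : 1 ≤ n := by omega
  have := fin_nonempty hn1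
  obtain ⟨q, ρ, rfl, hq, hρ1, hρ⟩ : ∃ q ρ, n = q * n₀ + ρ ∧ 1 ≤ q ∧ 1 ≤ ρ ∧ ρ ≤ n₀ := by
    refine ⟨(n - 1) / n₀, (n - 1) % n₀ + 1, ?_, ?_, by omega, Nat.mod_lt _ h₀⟩
    · have := Nat.div_add_mod' (n - 1) n₀
      omega
    · exact (Nat.one_le_div_iff h₀).2 (by omega)
  set N := q * n₀ with hN
  have hN1 : 1 ≤ N := Nat.mul_pos hq h₀
  set m := ⌊c₂ * N⌋₊ with hm
  have hmK : m ≤ K * (N + ρ) := (floor_le_mul hc₂).trans (Nat.mul_le_mul_left _ (by omega))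
  have e0 : (0 : ℝ) < N + ρ := by exact_mod_cast (by omega : 0 < N + ρ)
  have eρ : (ρ : ℝ) ≤ n₀ := by exact_mod_cast hρ
  have en : (2 * n₀ : ℝ) ≤ N + ρ := by exact_mod_cast hn
  have a1 : η ≤ (N / (N + ρ) : ℝ) ^ m := by
    have b1 : (N / (N + ρ) : ℝ) = 1 - ρ / (N + ρ) := by field_simp; ring
    rw [b1]
    refine le_trans ?_ (exp_le_one_sub_pow (by positivity) ?_ m)
    · rw [hη, Real.exp_le_exp, neg_le_neg_iff]
      have : (m : ℝ) ≤ K * (N + ρ) := by exact_mod_cast hmK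
      calc 2 * (ρ / (N + ρ) : ℝ) * m ≤ 2 * (n₀ / (N + ρ)) * (K * (N + ρ)) := by gcongr
        _ = _ := by field_simp
    · rw [div_le_iff₀ e0]; linarith
  have a2 : η * (1 / 2) ≤ PP (Fin (N + ρ)) k m :=
    le_trans (mul_le_mul a1 (g q hq) (by norm_num) (by positivity)) (PP_add_ge' k hN1 hρ1 m)
  have a3 := hw (N + ρ) hn1 ⌊c * ((N + ρ : ℕ) : ℝ)⌋₊ m hmK (δ * ((N + ρ : ℕ) : ℝ))
    (by positivity) (by
      have b1 : (⌊c * ((N + ρ : ℕ) : ℝ)⌋₊ : ℝ) ≤ c * ((N + ρ : ℕ) : ℝ) :=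
        Nat.floor_le (by positivity)
      have b2 : c₂ * N < m + 1 := Nat.lt_floor_add_one _
      have b3 : c₂ * ρ ≤ c₂ * n₀ := by gcongr; linarith
      have b4 : c₂ = c + 4 * δ := by rw [hδ]; ring
      push_cast at b1 hn' ⊢
      nlinarith)
  have a4 : 0 ≤ 1 - PP (Fin (N + ρ)) k ⌊c * ((N + ρ : ℕ) : ℝ)⌋₊ := sub_nonneg.2 (PP_le_one k _)
  set f := 1 - PP (Fin (N + ρ)) k ⌊c * ((N + ρ : ℕ) : ℝ)⌋₊
  have a5 : (δ * ((N + ρ : ℕ) : ℝ)) ^ 2 * (η * (1 / 2) * f) ≤ C * rt (N + ρ) ^ 10 :=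
    le_trans (by gcongr) a3
  rw [div_mul_eq_mul_div, le_div_iff₀ (by positivity)]
  nlinarith

lemma tendsto_zero_of_not (hk : 3 ≤ k) {c c₁ : ℝ} (hc₁ : 0 ≤ c₁) (hcc : c₁ < c)
    (g : ∀ᶠ n in atTop, ¬ GG k n c₁) :
    Tendsto (fun n : ℕ => PP (Fin n) k ⌊c * n⌋₊) atTop (𝓝 0) := by
  obtain ⟨C, hC, hw⟩ := window' hk (K := ⌈c⌉₊ + 1) (by omega)
  have hcK : c ≤ ((⌈c⌉₊ + 1 : ℕ) : ℝ) := by push_cast; linarith [Nat.le_ceil c]
  set δ := (c - c₁) / 4 with hδ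
  have hδ0 : 0 < δ := by rw [hδ]; linarith
  refine tendsto_zero_of_le _ (2 * C / δ ^ 2) ?_ ?_
  · filter_upwards [eventually_ge_atTop 1] with n hn
    have := fin_nonempty hn
    exact PP_nonneg k _
  filter_upwards [g, eventually_ge_atTop 1, eventually_le_mul (δ := 2 * δ) (by positivity) 3]
    with n hg hn hn'
  have := fin_nonempty hn
  have a3 := hw n hn ⌊c₁ * n⌋₊ ⌊c * n⌋₊ (floor_le_mul hcK) (δ * n) (by positivity) (by
    have b1 : (⌊c₁ * n⌋₊ : ℝ) ≤ c₁ * n := Nat.floor_le (by positivity)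
    have b2 : c * n < ⌊c * n⌋₊ + 1 := Nat.lt_floor_add_one _
    have b4 : c = c₁ + 4 * δ := by rw [hδ]; ring
    nlinarith)
  unfold GG at hg
  push Not at hg
  have a4 := PP_nonneg (V := Fin n) k ⌊c * n⌋₊
  set f := PP (Fin n) k ⌊c * n⌋₊
  have a5 : (δ * n) ^ 2 * (f * (1 / 2)) ≤ C * rt n ^ 10 := by
    refine le_trans ?_ a3
    gcongr
    linarith
  rw [div_mul_eq_mul_div, le_div_iff₀ (by positivity)]
  nlinarith

/-- The limiting threshold exists in the model with independent uniform literals. -/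
theorem threshold_iid (hk : 3 ≤ k) : ∃ α : ℝ, 0 < α ∧
    (∀ c : ℝ, 0 ≤ c → c < α → Tendsto (fun n : ℕ => PP (Fin n) k ⌊c * n⌋₊) atTop (𝓝 1)) ∧
    (∀ c : ℝ, α < c → Tendsto (fun n : ℕ => PP (Fin n) k ⌊c * n⌋₊) atTop (𝓝 0)) := by
  have hθ0 : (0 : ℝ) ≤ 1 - (1 / 2) ^ k := by
    have : ((1 : ℝ) / 2) ^ k ≤ 1 := pow_le_one₀ (by norm_num) (by norm_num)
    linarith
  have hθ1 : (1 : ℝ) - (1 / 2) ^ k < 1 := by
    have : (0 : ℝ) < (1 / 2) ^ k := by positivity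
    linarith
  obtain ⟨K, hK⟩ := exists_pow_lt_of_lt_one (show (0 : ℝ) < 1 / 8 by norm_num) hθ1
  have hK1 : 1 ≤ K := by
    rcases K with _ | K
    · norm_num at hK
    · omega
  set A : Set ℝ := {c | ∃ᶠ n in atTop, GG k n c} with hA
  have hub : ∀ c ∈ A, c ≤ K := by
    intro c hc
    by_contra hcon
    push Not at hcon
    obtain ⟨n, hn, hn1⟩ := (hc.and_eventually (eventually_ge_atTop 1)).exists
    have := fin_nonempty hn1
    have h1 := hn.mono hn1 hcon.le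
    unfold GG at h1
    rw [← Nat.cast_mul, Nat.floor_natCast] at h1
    have h2 := PP_le_first_moment (V := Fin n) k (K * n)
    rw [Fintype.card_fin, pow_mul, ← mul_pow] at h2
    have h3 : (2 * (1 - (1 / 2 : ℝ) ^ k) ^ K) ^ n ≤ (2 * (1 - (1 / 2 : ℝ) ^ k) ^ K) ^ 1 :=
      pow_le_pow_of_le_one (by positivity) (by linarith) hn1
    linarith
  have hbdd : BddAbove A := ⟨K, hub⟩
  have hmem : (1 / 27 : ℝ) ∈ A := by
    refine Eventually.frequently ?_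
    filter_upwards [eventually_ge_atTop 1] with n hn
    refine half_le_PP (by omega) hn ?_
    have : (⌊(1 / 27 : ℝ) * n⌋₊ : ℝ) ≤ 1 / 27 * n := Nat.floor_le (by positivity)
    have h2 : ((27 * ⌊(1 / 27 : ℝ) * n⌋₊ : ℕ) : ℝ) ≤ n := by push_cast; linarith
    exact_mod_cast h2
  have hα : (1 / 27 : ℝ) ≤ sSup A := le_csSup hbdd hmem
  refine ⟨sSup A, by linarith, fun c hc0 hc => ?_, fun c hc => ?_⟩
  · obtain ⟨c₁, hc₁, hcc⟩ := exists_lt_of_lt_csSup ⟨_, hmem⟩ hc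
    obtain ⟨κ, hκ, hit⟩ := iterate hk hK1
    have h1 : ∀ᶠ n in atTop, κ / rt n < (c₁ - c) / 2 :=
      (tendsto_const_nhds.div_atTop tendsto_rt).eventually_lt_const (by linarith)
    obtain ⟨n₀, g₀, h₀, h₀'⟩ := (hc₁.and_eventually ((eventually_ge_atTop 1).and h1)).exists
    have hκ' : 0 ≤ κ / rt n₀ := div_nonneg hκ.le (rt_nonneg _)
    exact tendsto_one_of_multiples hk hK1 h₀ hc0 (c₂ := c₁ - κ / rt n₀) (by linarith)
      (by linarith [hub c₁ hc₁]) (hit n₀ h₀ c₁ (hub c₁ hc₁) g₀)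
  · refine tendsto_zero_of_not hk (c₁ := (sSup A + c) / 2) (by linarith) (by linarith) ?_
    have : (sSup A + c) / 2 ∉ A := fun h => by linarith [le_csSup hbdd h]
    exact not_frequently.1 this

end Vale.Agent.P170
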