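import Mathlib

/-!
# Averaging operators for random constraints

`S : Set X` is the current set of solutions.  A uniformly random constraint `c ω` replaces `S`
by `S ∩ c ω`; the operator `op c` averages a test function over this step.
-/

open Finset
open scoped BigOperators

namespace Vale.Agent.P170

variable {X : Type*}

/-- The averaging operator of a uniformly random constraint. -/
noncomputable def op {Ω : Type*} [Fintype Ω] (c : Ω → Set X) : Module.End ℝ (Set X → ℝ) where
  toFun f S := 𝔼 ω, f (S ∩ c ω)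
  map_add' f g := by ext S; simp [expect_add_distrib]
  map_smul' a f := by ext S; simp [mul_expect]

lemma op_apply {Ω : Type*} [Fintype Ω] (c : Ω → Set X) (f : Set X → ℝ) (S : Set X) :
    op c f S = 𝔼 ω, f (S ∩ c ω) := rfl

/-- Intersecting with a fixed constraint. -/
def sh (C : Set X) : Module.End ℝ (Set X → ℝ) where
  toFun f S := f (S ∩ C)
  map_add' _ _ := rfl
  map_smul' _ _ := rfl

lemma sh_apply (C : Set X) (f : Set X → ℝ) (S : Set X) : sh C f S = f (S ∩ C) := rfl

/-- Locally monotone Markov operators. -/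
structure Good (T : Module.End ℝ (Set X → ℝ)) : Prop where
  mono : ∀ (f g : Set X → ℝ) (S : Set X), (∀ S' ⊆ S, f S' ≤ g S') → T f S ≤ T g S
  const : ∀ (a : ℝ) (S : Set X), T (fun _ => a) S = a

lemma good_one : Good (1 : Module.End ℝ (Set X → ℝ)) :=
  ⟨fun _ _ S h => h S subset_rfl, fun _ _ => rfl⟩

lemma Good.mul {A B : Module.End ℝ (Set X → ℝ)} (hA : Good A) (hB : Good B) : Good (A * B) := by
  refine ⟨fun f g S h => ?_, fun a S => ?_⟩
  · exact hA.mono _ _ S fun S' hS' => hB.mono _ _ S' fun S'' h'' => h S'' (h''.trans hS')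
  · have : B (fun _ => a) = fun _ => a := funext (hB.const a)
    show A (B fun _ => a) S = a
    rw [this, hA.const]

lemma Good.pow {A : Module.End ℝ (Set X → ℝ)} (hA : Good A) (m : ℕ) : Good (A ^ m) := by
  induction m with
  | zero => simpa using good_one
  | succ m ih => rw [pow_succ]; exact ih.mul hA

lemma Good.convex {A B : Module.End ℝ (Set X → ℝ)} (hA : Good A) (hB : Good B) {p q : ℝ}
    (hp : 0 ≤ p) (hq : 0 ≤ q) (hpq : p + q = 1) : Good (p • A + q • B) := by
  refine ⟨fun f g S h => ?_, fun a S => ?_⟩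
  · have h1 := hA.mono f g S h
    have h2 := hB.mono f g S h
    show p * A f S + q * B f S ≤ p * A g S + q * B g S
    gcongr
  · show p * A (fun _ => a) S + q * B (fun _ => a) S = a
    rw [hA.const, hB.const, ← add_mul, hpq, one_mul]

lemma Good.le {A : Module.End ℝ (Set X → ℝ)} (hA : Good A) {f g : Set X → ℝ}
    (h : ∀ S, f S ≤ g S) (S : Set X) : A f S ≤ A g S :=
  hA.mono f g S fun S' _ => h S'

lemma Good.le_const {A : Module.End ℝ (Set X → ℝ)} (hA : Good A) {f : Set X → ℝ} {a : ℝ}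
    (h : ∀ S, f S ≤ a) (S : Set X) : A f S ≤ a :=
  (hA.le h S).trans_eq (hA.const a S)

lemma Good.const_le {A : Module.End ℝ (Set X → ℝ)} (hA : Good A) {f : Set X → ℝ} {a : ℝ}
    (h : ∀ S, a ≤ f S) (S : Set X) : a ≤ A f S :=
  (hA.const a S).symm.trans_le (hA.le h S)

lemma Good.empty {A : Module.End ℝ (Set X → ℝ)} (hA : Good A) (f : Set X → ℝ) :
    A f ∅ = f ∅ := by
  apply le_antisymm
  · refine (hA.mono f (fun _ => f ∅) ∅ fun S' h => ?_).trans_eq (hA.const _ _)
    rw [Set.subset_empty_iff.1 h]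
  · refine (hA.const _ _).symm.trans_le (hA.mono (fun _ => f ∅) f ∅ fun S' h => ?_)
    rw [Set.subset_empty_iff.1 h]

lemma good_op {Ω : Type*} [Fintype Ω] [Nonempty Ω] (c : Ω → Set X) : Good (op c) := by
  refine ⟨fun f g S h => ?_, fun a S => ?_⟩
  · exact expect_le_expect fun ω _ => h _ Set.inter_subset_left
  · exact Fintype.expect_const a

lemma op_commute {Ω Ω' : Type*} [Fintype Ω] [Fintype Ω'] (c : Ω → Set X) (c' : Ω' → Set X) :
    Commute (op c) (op c') := by
  ext f S
  show 𝔼 ω, 𝔼 ω', f (S ∩ c ω ∩ c' ω') = 𝔼 ω', 𝔼 ω, f (S ∩ c' ω' ∩ c ω)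
  rw [expect_comm]
  simp only [Set.inter_right_comm]

lemma sh_commute {Ω : Type*} [Fintype Ω] (C : Set X) (c : Ω → Set X) :
    Commute (sh C) (op c) := by
  ext f S
  show 𝔼 ω, f (S ∩ C ∩ c ω) = 𝔼 ω, f (S ∩ c ω ∩ C)
  simp only [Set.inter_right_comm]

lemma pow_op_inter {Ω : Type*} [Fintype Ω] (C : Set X) (c : Ω → Set X) (m : ℕ) (f : Set X → ℝ)
    (S : Set X) : (op c ^ m) f (S ∩ C) = (op c ^ m) (sh C f) S := by
  have h := ((sh_commute C c).pow_right m).eq
  have := congrFun (congrArg (fun T : Module.End ℝ (Set X → ℝ) => T f) h) S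
  exact this

open Classical in
/-- Indicator of satisfiability. -/
noncomputable def chi : Set X → ℝ := fun S => if S.Nonempty then 1 else 0

lemma chi_of_nonempty {S : Set X} (h : S.Nonempty) : chi S = 1 := by simp [chi, h]

lemma chi_empty : chi (∅ : Set X) = 0 := by simp [chi]

lemma chi_nonneg (S : Set X) : 0 ≤ chi S := by unfold chi; split_ifs <;> norm_num

lemma chi_le_one (S : Set X) : chi S ≤ 1 := by unfold chi; split_ifs <;> norm_num

lemma chi_mono {S S' : Set X} (h : S' ⊆ S) : chi S' ≤ chi S := by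
  rcases S'.eq_empty_or_nonempty with rfl | h'
  · rw [chi_empty]; exact chi_nonneg S
  · rw [chi_of_nonempty h', chi_of_nonempty (h'.mono h)]

lemma Good.chi_le {A : Module.End ℝ (Set X → ℝ)} (hA : Good A) (S : Set X) : A chi S ≤ chi S :=
  (hA.mono chi (fun _ => chi S) S fun _ h => chi_mono h).trans_eq (hA.const _ _)

lemma Good.chi_nonneg {A : Module.End ℝ (Set X → ℝ)} (hA : Good A) (S : Set X) : 0 ≤ A chi S :=
  hA.const_le P170.chi_nonneg S

lemma Good.chi_le_one {A : Module.End ℝ (Set X → ℝ)} (hA : Good A) (S : Set X) : A chi S ≤ 1 :=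
  hA.le_const P170.chi_le_one S

lemma Good.pow_succ_chi_le {A : Module.End ℝ (Set X → ℝ)} (hA : Good A) (m : ℕ) (S : Set X) :
    (A ^ (m + 1)) chi S ≤ (A ^ m) chi S := by
  rw [pow_succ]
  exact (hA.pow m).le hA.chi_le S

lemma Good.antitone {A : Module.End ℝ (Set X → ℝ)} (hA : Good A) (S : Set X) :
    Antitone fun m : ℕ => (A ^ m) chi S :=
  antitone_nat_of_succ_le fun m => hA.pow_succ_chi_le m S

/-- Comparison of commuting operators on the satisfiability indicator. -/
lemma pow_chi_le_pow_chi {A B : Module.End ℝ (Set X → ℝ)} (hA : Good A) (hB : Good B)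
    (hAB : Commute A B) (h : ∀ S, A chi S ≤ B chi S) (m : ℕ) (S : Set X) :
    (A ^ m) chi S ≤ (B ^ m) chi S := by
  induction m generalizing S with
  | zero => simp
  | succ m ih =>
    calc (A ^ (m + 1)) chi S = (A ^ m) (A chi) S := by rw [pow_succ]; rfl
      _ ≤ (A ^ m) (B chi) S := (hA.pow m).le h S
      _ = B ((A ^ m) chi) S := by
          have := (hAB.pow_left m).eq
          exact congrFun (congrArg (fun T : Module.End ℝ (Set X → ℝ) => T chi) this) S
      _ ≤ B ((B ^ m) chi) S := hB.le ih S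
      _ = (B ^ (m + 1)) chi S := by rw [pow_succ']; rfl

/-- Domination `A ≥ θ B` on nonnegative functions passes to powers. -/
lemma pow_ge_of_ge {A B : Module.End ℝ (Set X → ℝ)} (hA : Good A) (hB : Good B) {θ : ℝ}
    (hθ : 0 ≤ θ) (h : ∀ f : Set X → ℝ, (∀ S, 0 ≤ f S) → ∀ S, θ * B f S ≤ A f S)
    (f : Set X → ℝ) (hf : ∀ S, 0 ≤ f S) (m : ℕ) (S : Set X) :
    θ ^ m * (B ^ m) f S ≤ (A ^ m) f S := by
  induction m generalizing S with
  | zero => simp
  | succ m ih =>
    have h1 : θ * B ((B ^ m) f) S ≤ A ((B ^ m) f) S := h _ ((hB.pow m).const_le hf) S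
    have h2 : A (θ ^ m • (B ^ m) f) S ≤ A ((A ^ m) f) S := hA.le ih S
    rw [map_smul] at h2
    have h3 : θ ^ m * A ((B ^ m) f) S ≤ A ((A ^ m) f) S := h2
    calc θ ^ (m + 1) * (B ^ (m + 1)) f S = θ ^ m * (θ * B ((B ^ m) f) S) := by
          rw [pow_succ' B, pow_succ θ, mul_assoc]; rfl
      _ ≤ θ ^ m * A ((B ^ m) f) S := by gcongr
      _ ≤ A ((A ^ m) f) S := h3
      _ = (A ^ (m + 1)) f S := by rw [pow_succ']; rfl

/-- Powers of `op c` as averages over sequences of independent constraints. -/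
lemma pow_op_apply {Ω : Type*} [Fintype Ω] (c : Ω → Set X) (m : ℕ) (f : Set X → ℝ) (S : Set X) :
    (op c ^ m) f S = 𝔼 F : Fin m → Ω, f (S ∩ ⋂ i, c (F i)) := by
  induction m generalizing S with
  | zero => simp
  | succ m ih =>
    rw [pow_succ']
    show 𝔼 ω, (op c ^ m) f (S ∩ c ω) = _
    simp_rw [ih]
    rw [← expect_product' , univ_product_univ]
    refine Fintype.expect_equiv (Fin.consEquiv fun _ => Ω) _ _ fun ⟨ω, F⟩ => ?_
    congr 1
    ext x
    simp [Fin.forall_fin_succ, and_assoc, Fin.consEquiv]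

end Vale.Agent.P170
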