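import Vale.Agent.P170.Limit
import Vale.Agent.P170.Defs

/-!
# Transfer from independent literals to proper clauses
-/

open Finset Filter Topology
open scoped BigOperators

namespace Vale.Agent.P170

variable {k n : ℕ}

noncomputable instance properFintype (k n : ℕ) : Fintype (ProperClause k n) := by
  classical
  unfold ProperClause
  infer_instance

/-- Satisfying set of a finite set of literals. -/
def cS (C : Finset (Fin n × Bool)) : Set (Fin n → Bool) := {σ | ∃ l ∈ C, σ l.1 = l.2}

/-- Satisfying set of a proper clause. -/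
def cP (C : ProperClause k n) : Set (Fin n → Bool) := cS C.1

lemma satProb_eq (k n m : ℕ) :
    satProb k n m = (op (cP (k := k) (n := n)) ^ m) chi Set.univ := by
  classical
  rw [pow_op_apply, Fintype.expect_eq_sum_div_card, satProb, Nat.card_eq_fintype_card,
    Nat.card_eq_fintype_card, Fintype.card_subtype, card_filter]
  congr 1
  push_cast
  refine sum_congr rfl fun F _ => ?_
  have : Satisfiable F ↔ (Set.univ ∩ ⋂ i, cP (F i)).Nonempty := by
    simp [Satisfiable, cP, cS, Set.Nonempty]
  simp only [chi, this]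

open Classical in
/-- Tuples of literals on distinct variables. -/
noncomputable def injT (k n : ℕ) : Finset (Fin k → Fin n × Bool) :=
  univ.filter fun t => Function.Injective fun j => (t j).1

lemma card_fiber (C : ProperClause k n) :
    ((injT k n).filter fun t => univ.image t = C.1).card = k.factorial := by
  have h1 : Fintype.card (Fin k ↪ C.1) = k.factorial := by
    rw [Fintype.card_embedding_eq, Fintype.card_coe, C.2.1, Fintype.card_fin,
      Nat.descFactorial_self]
  rw [← h1, ← card_univ]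
  symm
  refine card_bij (fun e _ => fun j => (e j).1) (fun e _ => ?_) (fun e _ e' _ h => ?_)
    (fun t ht => ?_)
  · have hinj : Function.Injective fun j => (e j).1 :=
      Subtype.val_injective.comp e.injective
    simp only [injT, mem_filter, mem_univ, true_and]
    refine ⟨fun a b hab => hinj (C.2.2 _ (e a).2 _ (e b).2 hab), ?_⟩
    refine eq_of_subset_of_card_le (fun l hl => ?_) ?_
    · obtain ⟨j, _, rfl⟩ := mem_image.1 hl
      exact (e j).2
    · rw [card_image_of_injective _ hinj, C.2.1]; simp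
  · ext j : 2
    exact congrFun h j
  · simp only [injT, mem_filter, mem_univ, true_and] at ht
    refine ⟨⟨fun j => ⟨t j, ht.2 ▸ mem_image_of_mem t (mem_univ j)⟩, fun a b hab => ?_⟩,
      mem_univ _, rfl⟩
    have : t a = t b := congrArg Subtype.val hab
    exact ht.1 (congrArg Prod.fst this)

lemma sum_injT (g : Finset (Fin n × Bool) → ℝ) :
    ∑ t ∈ injT k n, g (univ.image t) = k.factorial * ∑ C : ProperClause k n, g C.1 := by
  classical
  rw [← sum_fiberwise_of_maps_to (s := injT k n)
    (t := univ.filter fun C : Finset (Fin n × Bool) =>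
      C.card = k ∧ ∀ a ∈ C, ∀ b ∈ C, a.1 = b.1 → a = b) (g := fun t => univ.image t)]
  · rw [sum_subtype (F := properFintype k n) _ (fun C => by simp), mul_sum]
    refine sum_congr rfl fun C _ => ?_
    rw [sum_congr rfl fun t ht => by rw [(mem_filter.1 ht).2], sum_const, card_fiber C,
      nsmul_eq_mul]
  · intro t ht
    simp only [injT, mem_filter, mem_univ, true_and] at ht ⊢
    have hinj : Function.Injective t := fun a b hab => ht (congrArg Prod.fst hab)
    refine ⟨by rw [card_image_of_injective _ hinj]; simp, fun a ha b hb hab => ?_⟩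
    obtain ⟨i, _, rfl⟩ := mem_image.1 ha
    obtain ⟨j, _, rfl⟩ := mem_image.1 hb
    rw [ht hab]

lemma card_injT_ge (k n : ℕ) : (n - k) ^ k * 2 ^ k ≤ (injT k n).card := by
  have h1 : Fintype.card ((Fin k ↪ Fin n) × (Fin k → Bool)) = n.descFactorial k * 2 ^ k := by
    simp
  have h2 : (n - k) ^ k ≤ n.descFactorial k :=
    (Nat.pow_le_pow_left (by omega) k).trans (Nat.pow_sub_le_descFactorial n k)
  refine (Nat.mul_le_mul_right _ h2).trans ?_
  rw [← h1, ← card_univ]
  refine card_le_card_of_injOn (fun p j => (p.1 j, p.2 j)) (fun p _ => ?_) (fun p _ p' _ h => ?_)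
  · simp only [injT, coe_filter, mem_univ, true_and]
    exact p.1.injective
  · ext j
    · exact congrArg (fun x => (x.1 : ℕ)) (congrFun h j)
    · exact congrArg Prod.snd (congrFun h j)

lemma card_proper_ge (hkn : k ≤ n) :
    ((n : ℝ) - k) ^ k * 2 ^ k ≤ k.factorial * Fintype.card (ProperClause k n) := by
  have h1 := sum_injT (k := k) (n := n) fun _ => 1
  simp only [sum_const, card_univ, nsmul_eq_mul, mul_one] at h1
  rw [← h1, ← Nat.cast_sub hkn]
  exact_mod_cast card_injT_ge k n

lemma proper_nonempty (hkn : k < n) : Nonempty (ProperClause k n) := by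
  rw [← Fintype.card_pos_iff]
  by_contra h
  have h1 := card_proper_ge hkn.le
  rw [show Fintype.card (ProperClause k n) = 0 by omega] at h1
  have h2 : (0 : ℝ) < n - k := by rw [sub_pos]; exact_mod_cast hkn
  have h3 : (0 : ℝ) < ((n : ℝ) - k) ^ k * 2 ^ k := by positivity
  simp only [Nat.cast_zero, mul_zero] at h1
  linarith

lemma dominate (hkn : k < n) (f : Set (Fin n → Bool) → ℝ) (hf : ∀ S, 0 ≤ f S)
    (S : Set (Fin n → Bool)) :
    (1 - (k : ℝ) / n) ^ k * op (cP (k := k) (n := n)) f S ≤ TT (lit0 (Fin n)) k f S := by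
  have := proper_nonempty hkn
  have hn : (0 : ℝ) < n := by exact_mod_cast (by omega : 0 < n)
  have hc : (0 : ℝ) < Fintype.card (ProperClause k n) := by exact_mod_cast Fintype.card_pos
  unfold TT
  rw [op_apply, op_apply, Fintype.expect_eq_sum_div_card, Fintype.expect_eq_sum_div_card]
  have h1 : ∀ t : Fin k → Fin n × Bool, cl (lit0 (Fin n)) k t = cS (univ.image t) := by
    intro t; ext σ; simp [cl, lit0, cS]
  have h2 : k.factorial * ∑ C : ProperClause k n, f (S ∩ cP C) ≤
      ∑ t : Fin k → Fin n × Bool, f (S ∩ cl (lit0 (Fin n)) k t) := by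
    have := sum_injT (k := k) (n := n) fun C => f (S ∩ cS C)
    refine this.symm.trans_le ?_
    simp only [h1]
    exact sum_le_sum_of_subset_of_nonneg (subset_univ _) fun t _ _ => hf _
  have h3 := card_proper_ge hkn.le
  have h4 : (Fintype.card (Fin k → Fin n × Bool) : ℝ) = n ^ k * 2 ^ k := by
    simp [mul_pow]
  have h5 : 0 ≤ ∑ C : ProperClause k n, f (S ∩ cP C) := sum_nonneg fun C _ => hf _
  have h6 : (1 - (k : ℝ) / n) ^ k = ((n : ℝ) - k) ^ k * 2 ^ k / (n ^ k * 2 ^ k) := by
    rw [mul_div_mul_right _ _ (by positivity), ← div_pow]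
    congr 1
    field_simp
  rw [h4, h6]
  calc _ ≤ k.factorial * Fintype.card (ProperClause k n) / (n ^ k * 2 ^ k) *
        ((∑ C : ProperClause k n, f (S ∩ cP C)) / Fintype.card (ProperClause k n)) := by gcongr
    _ = (k.factorial * ∑ C : ProperClause k n, f (S ∩ cP C)) / (n ^ k * 2 ^ k) := by field_simp
    _ ≤ _ := by gcongr

lemma transfer (hkn : 2 * k < n) {c : ℝ} (hc : 0 ≤ c) :
    Real.exp (-(2 * k * k * c)) * satProb k n ⌊c * n⌋₊ ≤ PP (Fin n) k ⌊c * n⌋₊ ∧
    Real.exp (-(2 * k * k * c)) * (1 - satProb k n ⌊c * n⌋₊) ≤ 1 - PP (Fin n) k ⌊c * n⌋₊ ∧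
    0 ≤ satProb k n ⌊c * n⌋₊ ∧ satProb k n ⌊c * n⌋₊ ≤ 1 := by
  have hkn' : k < n := by omega
  have := proper_nonempty hkn'
  have := fin_nonempty (n := n) (by omega)
  have hn : (0 : ℝ) < n := by exact_mod_cast (by omega : 0 < n)
  have hk2 : (k : ℝ) / n ≤ 1 / 2 := by
    rw [div_le_iff₀ hn]
    have : (2 * k : ℝ) ≤ n := by exact_mod_cast hkn.le
    linarith
  set m := ⌊c * n⌋₊ with hm
  have hm1 : (m : ℝ) ≤ c * n := Nat.floor_le (by positivity)
  have hθ0 : (0 : ℝ) ≤ (1 - (k : ℝ) / n) ^ k := pow_nonneg (by linarith) k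
  have hθ : Real.exp (-(2 * k * k * c)) ≤ ((1 - (k : ℝ) / n) ^ k) ^ m := by
    rw [← pow_mul]
    refine le_trans ?_ (exp_le_one_sub_pow (by positivity) hk2 (k * m))
    rw [Real.exp_le_exp, neg_le_neg_iff]
    push_cast
    calc 2 * ((k : ℝ) / n) * (k * m) ≤ 2 * (k / n) * (k * (c * n)) := by gcongr
      _ = _ := by field_simp
  have hB : Good (op (cP (k := k) (n := n))) := good_op _
  have hA : Good (TT (lit0 (Fin n)) k) := good_TT _ k
  have h0 : 0 ≤ satProb k n m := by rw [satProb_eq]; exact (hB.pow m).chi_nonneg _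
  have h1 : satProb k n m ≤ 1 := by rw [satProb_eq]; exact (hB.pow m).chi_le_one _
  refine ⟨?_, ?_, h0, h1⟩
  · refine (mul_le_mul_of_nonneg_right hθ h0).trans ?_
    rw [satProb_eq]
    exact pow_ge_of_ge hA hB hθ0 (dominate hkn') chi chi_nonneg m _
  · refine (mul_le_mul_of_nonneg_right hθ (sub_nonneg.2 h1)).trans ?_
    have := pow_ge_of_ge hA hB hθ0 (dominate hkn') ((fun _ => 1) - chi)
      (fun S => sub_nonneg.2 (chi_le_one S)) m Set.univ
    rw [map_sub, map_sub, Pi.sub_apply, Pi.sub_apply, (hA.pow m).const, (hB.pow m).const,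
      ← satProb_eq] at this
    exact this

theorem threshold_proper (hk : 3 ≤ k) : ∃ α : ℝ, 0 < α ∧
    (∀ c : ℝ, 0 ≤ c → c < α → Tendsto (fun n : ℕ => satProb k n ⌊c * n⌋₊) atTop (𝓝 1)) ∧
    (∀ c : ℝ, α < c → Tendsto (fun n : ℕ => satProb k n ⌊c * n⌋₊) atTop (𝓝 0)) := by
  obtain ⟨α, hα, h1, h0⟩ := threshold_iid hk
  refine ⟨α, hα, fun c hc hcα => ?_, fun c hc => ?_⟩
  · have hE := Real.exp_pos (-(2 * k * k * c))
    have h2 : Tendsto (fun n : ℕ => (1 - PP (Fin n) k ⌊c * n⌋₊) / Real.exp (-(2 * k * k * c)))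
        atTop (𝓝 0) := by
      simpa using ((h1 c hc hcα).const_sub 1).div_const (Real.exp (-(2 * k * k * c)))
    have h3 : Tendsto (fun n : ℕ => 1 - satProb k n ⌊c * n⌋₊) atTop (𝓝 0) := by
      refine squeeze_zero' ?_ ?_ h2
      · filter_upwards [eventually_gt_atTop (2 * k)] with n hn
        exact sub_nonneg.2 (transfer hn hc).2.2.2
      · filter_upwards [eventually_gt_atTop (2 * k)] with n hn
        rw [le_div_iff₀ hE, mul_comm]
        exact (transfer hn hc).2.1
    simpa using h3.const_sub 1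
  · have hc0 : 0 ≤ c := by linarith
    have hE := Real.exp_pos (-(2 * k * k * c))
    have h2 : Tendsto (fun n : ℕ => PP (Fin n) k ⌊c * n⌋₊ / Real.exp (-(2 * k * k * c)))
        atTop (𝓝 0) := by
      simpa using (h0 c hc).div_const (Real.exp (-(2 * k * k * c)))
    refine squeeze_zero' ?_ ?_ h2
    · filter_upwards [eventually_gt_atTop (2 * k)] with n hn
      exact (transfer hn hc0).2.2.1
    · filter_upwards [eventually_gt_atTop (2 * k)] with n hn
      rw [le_div_iff₀ hE, mul_comm]
      exact (transfer hn hc0).1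

end Vale.Agent.P170
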