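import Vale.Agent.P170.Op

/-!
# Variance of the capped hitting time
-/

open Finset
open scoped BigOperators

namespace Vale.Agent.P170

variable {X : Type*}

/-- Expected number of satisfiable times among the next `r` steps. -/
noncomputable def ee (T : Module.End ℝ (Set X → ℝ)) (r : ℕ) : Set X → ℝ :=
  ∑ m ∈ range r, (T ^ m) chi

/-- Second moment of the number of satisfiable times among the next `r` steps. -/
noncomputable def ss (T : Module.End ℝ (Set X → ℝ)) (r : ℕ) : Set X → ℝ :=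
  ∑ m ∈ range r, (2 * (m : ℝ) + 1) • (T ^ m) chi

lemma sum_pow_succ (T : Module.End ℝ (Set X → ℝ)) (f : Set X → ℝ) (r : ℕ) :
    ∑ m ∈ range (r + 1), (T ^ m) f = f + T (∑ m ∈ range r, (T ^ m) f) := by
  rw [sum_range_succ', map_sum, add_comm]
  simp only [pow_succ', pow_zero, Module.End.one_apply, Module.End.mul_apply]

lemma ee_succ (T : Module.End ℝ (Set X → ℝ)) (r : ℕ) : ee T (r + 1) = chi + T (ee T r) :=
  sum_pow_succ T chi r

lemma ss_succ (T : Module.End ℝ (Set X → ℝ)) (r : ℕ) :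
    ss T (r + 1) = chi + (2 : ℝ) • T (ee T r) + T (ss T r) := by
  unfold ss ee
  rw [sum_range_succ', map_sum, map_sum, smul_sum, add_assoc, ← sum_add_distrib, add_comm]
  congr 1
  · simp
  · refine sum_congr rfl fun m _ => ?_
    rw [map_smul, ← add_smul, pow_succ']
    congr 1
    push_cast
    ring

lemma ee_apply (T : Module.End ℝ (Set X → ℝ)) (r : ℕ) (S : Set X) :
    ee T r S = ∑ m ∈ range r, (T ^ m) chi S := by
  simp [ee, Finset.sum_apply]

lemma ss_apply (T : Module.End ℝ (Set X → ℝ)) (r : ℕ) (S : Set X) :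
    ss T r S = ∑ m ∈ range r, (2 * (m : ℝ) + 1) * (T ^ m) chi S := by
  simp [ss, Finset.sum_apply]

lemma ee_nonneg {T : Module.End ℝ (Set X → ℝ)} (hT : Good T) (r : ℕ) (S : Set X) :
    0 ≤ ee T r S := by
  rw [ee_apply]; exact sum_nonneg fun m _ => (hT.pow m).chi_nonneg S

lemma ee_le {T : Module.End ℝ (Set X → ℝ)} (hT : Good T) (r : ℕ) (S : Set X) :
    ee T r S ≤ r := by
  rw [ee_apply]
  calc ∑ m ∈ range r, (T ^ m) chi S ≤ ∑ m ∈ range r, (1 : ℝ) :=
        sum_le_sum fun m _ => (hT.pow m).chi_le_one S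
    _ = r := by simp

lemma ee_empty {T : Module.End ℝ (Set X → ℝ)} (hT : Good T) (r : ℕ) : ee T r ∅ = 0 := by
  rw [ee_apply]
  exact sum_eq_zero fun m _ => by rw [(hT.pow m).empty, chi_empty]

/-- The hazard rate. -/
noncomputable def hz (T : Module.End ℝ (Set X → ℝ)) (S : Set X) : ℝ := chi S - T chi S

lemma hz_nonneg {T : Module.End ℝ (Set X → ℝ)} (hT : Good T) (S : Set X) : 0 ≤ hz T S :=
  sub_nonneg.2 (hT.chi_le S)

lemma hz_empty {T : Module.End ℝ (Set X → ℝ)} (hT : Good T) : hz T ∅ = 0 := by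
  rw [hz, hT.empty, sub_self]

section
variable {Ω : Type*} [Fintype Ω] [Nonempty Ω] (c : Ω → Set X)

lemma hz_op (S : Set X) : hz (op c) S = 𝔼 ω, (chi S - chi (S ∩ c ω)) := by
  rw [expect_sub_distrib, Fintype.expect_const]; rfl

lemma hz_mul_chi_le {S S' : Set X} (h : S' ⊆ S) : hz (op c) S * chi S' ≤ hz (op c) S' := by
  rcases S'.eq_empty_or_nonempty with rfl | h'
  · rw [chi_empty, mul_zero]; exact hz_nonneg (good_op c) _
  · rw [chi_of_nonempty h', mul_one, hz_op, hz_op]
    refine expect_le_expect fun ω _ => ?_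
    rw [chi_of_nonempty h', chi_of_nonempty (h'.mono h)]
    have := chi_mono (Set.inter_subset_inter_left (c ω) h)
    linarith

lemma hz_mul_ee_le (r : ℕ) (S : Set X) :
    hz (op c) S * ee (op c) r S ≤ chi S - (op c ^ r) chi S := by
  induction r with
  | zero => simp [ee]
  | succ r ih =>
    rw [ee_apply, sum_range_succ, ← ee_apply, mul_add]
    have h1 : (op c ^ r) (hz (op c) S • chi) S ≤ (op c ^ r) (chi - op c chi) S :=
      ((good_op c).pow r).mono _ _ S fun S' h => hz_mul_chi_le c h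
    rw [map_smul, map_sub] at h1
    have h2 : hz (op c) S * (op c ^ r) chi S ≤ (op c ^ r) chi S - (op c ^ (r + 1)) chi S := by
      rw [pow_succ]; exact h1
    linarith

lemma mul_hz_mul_pow_le (r : ℕ) (S : Set X) :
    r * hz (op c) S * (op c ^ r) chi S ≤ chi S - (op c ^ r) chi S := by
  refine le_trans ?_ (hz_mul_ee_le c r S)
  rw [mul_comm (r : ℝ), mul_assoc]
  refine mul_le_mul_of_nonneg_left ?_ (hz_nonneg (good_op c) S)
  rw [ee_apply]
  calc (r : ℝ) * (op c ^ r) chi S = ∑ m ∈ range r, (op c ^ r) chi S := by simp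
    _ ≤ _ := sum_le_sum fun m hm => (good_op c).antitone S (mem_range.1 hm).le

lemma sq_expect_le (g : Ω → ℝ) : (𝔼 ω, g ω) ^ 2 ≤ 𝔼 ω, g ω ^ 2 := by
  have := expect_mul_sq_le_sq_mul_sq univ g (fun _ => (1 : ℝ))
  simpa [Fintype.expect_const] using this

/-- Mean square effect of one more constraint on the expected remaining lifetime. -/
noncomputable def dd (r : ℕ) (S : Set X) : ℝ :=
  𝔼 ω, (ee (op c) r S - ee (op c) r (S ∩ c ω)) ^ 2

lemma dd_succ_le (r : ℕ) (S : Set X) :
    dd c (r + 1) S ≤ 2 * (hz (op c) S * ee (op c) (r + 1) S) + op c (dd c r) S := by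
  have hT := good_op c
  set e := ee (op c) r with he
  have he0 : ∀ S, 0 ≤ e S := ee_nonneg hT r
  have hTe0 : 0 ≤ op c e S := hT.const_le he0 S
  have key : ∀ ω, (ee (op c) (r + 1) S - ee (op c) (r + 1) (S ∩ c ω)) ^ 2 ≤
      (chi S - chi (S ∩ c ω)) * (1 + 2 * op c e S) +
        𝔼 ω', (e (S ∩ c ω') - e (S ∩ c ω' ∩ c ω)) ^ 2 := by
    intro ω
    have h1 : ee (op c) (r + 1) S - ee (op c) (r + 1) (S ∩ c ω) =
        (chi S - chi (S ∩ c ω)) + 𝔼 ω', (e (S ∩ c ω') - e (S ∩ c ω' ∩ c ω)) := by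
      rw [ee_succ, expect_sub_distrib]
      simp only [Pi.add_apply, op_apply, ← he, Set.inter_right_comm S (c ω)]
      ring
    have h2 := sq_expect_le (fun ω' => e (S ∩ c ω') - e (S ∩ c ω' ∩ c ω))
    have h3 : 𝔼 ω', (e (S ∩ c ω') - e (S ∩ c ω' ∩ c ω)) ≤ op c e S :=
      expect_le_expect fun ω' _ => by linarith [he0 (S ∩ c ω' ∩ c ω)]
    have h4 : 0 ≤ chi S - chi (S ∩ c ω) := sub_nonneg.2 (chi_mono Set.inter_subset_left)
    have h5 : chi S - chi (S ∩ c ω) ≤ 1 := by linarith [chi_le_one S, chi_nonneg (S ∩ c ω)]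
    rw [h1]
    nlinarith [mul_le_mul_of_nonneg_left h3 h4, mul_le_mul_of_nonneg_left h5 h4]
  have h6 : dd c (r + 1) S ≤ hz (op c) S * (1 + 2 * op c e S) + op c (dd c r) S := by
    refine (expect_le_expect fun ω _ => key ω).trans_eq ?_
    rw [expect_add_distrib, ← expect_mul, ← hz_op, expect_comm]
    rfl
  refine h6.trans ?_
  rw [ee_succ]
  simp only [Pi.add_apply, ← he]
  have h7 := hz_mul_chi_le c (subset_refl S)
  rcases S.eq_empty_or_nonempty with rfl | hS
  · rw [hz_empty hT]; simp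
  · rw [chi_of_nonempty hS]
    nlinarith [hz_nonneg hT S]

lemma dd_le (a : Set X → ℝ) (M : ℕ) (ha : ∀ r ≤ M, ∀ S, hz (op c) S * ee (op c) r S ≤ a S) :
    ∀ r ≤ M, ∀ S, dd c r S ≤ 2 * (∑ m ∈ range r, (op c ^ m) a) S := by
  intro r
  induction r with
  | zero => intro _ S; simp [dd, ee]
  | succ r ih =>
    intro hr S
    have h1 := dd_succ_le c r S
    have h2 : op c (dd c r) S ≤ op c ((2 : ℝ) • ∑ m ∈ range r, (op c ^ m) a) S :=
      (good_op c).le (ih (by omega)) S
    rw [map_smul] at h2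
    rw [sum_pow_succ]
    have h3 := ha (r + 1) hr S
    simp only [Pi.add_apply, Pi.smul_apply, smul_eq_mul] at h2 ⊢
    linarith

lemma var_succ_le (r : ℕ) (S : Set X) :
    ss (op c) (r + 1) S - ee (op c) (r + 1) S ^ 2 ≤
      op c (fun S => ss (op c) r S - ee (op c) r S ^ 2) S + dd c r S := by
  have hT := good_op c
  set e := ee (op c) r with he
  have h1 : op c (fun S => ss (op c) r S - e S ^ 2) S =
      op c (ss (op c) r) S - 𝔼 ω, e (S ∩ c ω) ^ 2 := by
    rw [op_apply, expect_sub_distrib]; rfl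
  have h2 : dd c r S = e S ^ 2 - 2 * e S * op c e S + 𝔼 ω, e (S ∩ c ω) ^ 2 := by
    unfold dd
    rw [← he, op_apply, mul_expect, ← Fintype.expect_const (ι := Ω) (e S ^ 2),
      ← expect_sub_distrib, ← expect_add_distrib]
    exact expect_congr rfl fun ω _ => by ring
  rw [h1, h2, ss_succ, ee_succ]
  simp only [Pi.add_apply, Pi.smul_apply, smul_eq_mul, ← he]
  rcases S.eq_empty_or_nonempty with rfl | hS
  · have : e ∅ = 0 := ee_empty hT r
    rw [hT.empty e, this, chi_empty]
    simp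
  · rw [chi_of_nonempty hS]
    nlinarith [sq_nonneg (e S - op c e S)]

theorem var_le (a : Set X → ℝ) (ha0 : ∀ S, 0 ≤ a S) (M : ℕ)
    (ha : ∀ r ≤ M, ∀ S, hz (op c) S * ee (op c) r S ≤ a S) :
    ∀ r ≤ M, ∀ S, ss (op c) r S - ee (op c) r S ^ 2 ≤
      2 * r * (∑ m ∈ range r, (op c ^ m) a) S := by
  have hT := good_op c
  intro r
  induction r with
  | zero => intro _ S; simp [ss, ee]
  | succ r ih =>
    intro hr S
    have h1 := var_succ_le c r S
    have h2 : op c (fun S => ss (op c) r S - ee (op c) r S ^ 2) S ≤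
        op c ((2 * (r : ℝ)) • ∑ m ∈ range r, (op c ^ m) a) S := hT.le (ih (by omega)) S
    rw [map_smul] at h2
    have h3 := dd_le c a M ha r (by omega) S
    have h4 : (∑ m ∈ range r, (op c ^ m) a) S ≤ (∑ m ∈ range (r + 1), (op c ^ m) a) S := by
      rw [sum_range_succ, Pi.add_apply]
      linarith [(hT.pow r).const_le ha0 S]
    have h5 : op c (∑ m ∈ range r, (op c ^ m) a) S ≤ (∑ m ∈ range (r + 1), (op c ^ m) a) S := by
      rw [sum_pow_succ, Pi.add_apply]
      linarith [ha0 S]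
    simp only [Pi.smul_apply, smul_eq_mul] at h2
    have h6 : (0 : ℝ) ≤ 2 * r := by positivity
    push_cast
    nlinarith [mul_le_mul_of_nonneg_left h5 h6]

end

/-- A decreasing `[0,1]`-valued sequence: the variance controls the window. -/
lemma window_le_var (P : ℕ → ℝ) (hP : Antitone P) (h0 : ∀ m, 0 ≤ P m) (h1 : ∀ m, P m ≤ 1)
    (a g M : ℕ) (hM : a + 2 * g ≤ M) :
    (g : ℝ) ^ 2 * (P (a + 2 * g) * (1 - P a)) ≤
      ∑ m ∈ range M, (2 * (m : ℝ) + 1) * P m - (∑ m ∈ range M, P m) ^ 2 := by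
  have hmax : ∀ r, ∑ m ∈ range r, (2 * (m : ℝ) + 1) * P m =
      ∑ m ∈ range r, ∑ m' ∈ range r, P (max m m') := by
    intro r
    induction r with
    | zero => simp
    | succ r ih =>
      rw [sum_range_succ, ih, sum_range_succ, sum_range_succ]
      simp_rw [sum_range_succ _ r, sum_add_distrib]
      have e1 : ∑ m ∈ range r, P (max m r) = r * P r := by
        rw [sum_congr rfl fun m hm => by rw [max_eq_right (mem_range.1 hm).le]]; simp
      have e2 : ∑ m ∈ range r, P (max r m) = r * P r := by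
        rw [sum_congr rfl fun m hm => by rw [max_eq_left (mem_range.1 hm).le]]; simp
      rw [e1, e2, max_self]
      ring
  rw [hmax, sq (∑ m ∈ range M, P m), sum_mul_sum, ← sum_sub_distrib]
  simp_rw [← sum_sub_distrib]
  have hterm : ∀ m m', 0 ≤ P (max m m') - P m * P m' := by
    intro m m'
    rcases le_total m m' with h | h
    · rw [max_eq_right h]; nlinarith [h0 m', h1 m]
    · rw [max_eq_left h]; nlinarith [h0 m, h1 m']
  have hsub1 : Ico a (a + g) ⊆ range M := fun x hx => by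
    rw [mem_Ico] at hx; rw [mem_range]; omega
  have hsub2 : Ico (a + g) (a + 2 * g) ⊆ range M := fun x hx => by
    rw [mem_Ico] at hx; rw [mem_range]; omega
  calc (g : ℝ) ^ 2 * (P (a + 2 * g) * (1 - P a))
      = ∑ m ∈ Ico a (a + g), ∑ m' ∈ Ico (a + g) (a + 2 * g), P (a + 2 * g) * (1 - P a) := by
        simp only [sum_const, Nat.card_Ico, nsmul_eq_mul]
        rw [show a + 2 * g - (a + g) = g by omega, show a + g - a = g by omega]
        ring
    _ ≤ ∑ m ∈ Ico a (a + g), ∑ m' ∈ Ico (a + g) (a + 2 * g), (P (max m m') - P m * P m') := by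
        refine sum_le_sum fun m hm => sum_le_sum fun m' hm' => ?_
        rw [mem_Ico] at hm hm'
        rw [max_eq_right (by omega : m ≤ m')]
        have e1 : P (a + 2 * g) ≤ P m' := hP hm'.2.le
        have e2 : P m ≤ P a := hP hm.1
        have e3 : P (a + 2 * g) * (1 - P a) ≤ P m' * (1 - P m) :=
          mul_le_mul e1 (by linarith) (by linarith [h1 a]) (h0 m')
        linarith
    _ ≤ ∑ m ∈ Ico a (a + g), ∑ m' ∈ range M, (P (max m m') - P m * P m') :=
        sum_le_sum fun m _ => sum_le_sum_of_subset_of_nonneg hsub2 fun m' _ _ => hterm m m'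
    _ ≤ _ := sum_le_sum_of_subset_of_nonneg hsub1 fun m _ _ => sum_nonneg fun m' _ => hterm m m'

end Vale.Agent.P170
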